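import Vale.Agent.P170.Op

/-!
Clauses built from independent uniform literals, the backbone fraction, and the
variance bound for random k-SAT with independent literals.
-/

namespace Vale.Agent.P170

open Finset

/-- the set of points satisfying a clause of a literal system -/
def cl {Ω Λ : Type*} (k : ℕ) (lit : Λ → Set Ω) (c : Fin k → Λ) : Set Ω := {σ | ∃ i, σ ∈ lit (c i)}

/-- the fraction of literals that are false on all of S -/
noncomputable def bb {Ω Λ : Type*} [Fintype Λ] (lit : Λ → Set Ω) (S : Set Ω) : ℝ :=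
  av (fun l => 1 - ind (S ∩ lit l))

section lits
variable {Ω Λ : Type*} [Fintype Λ]

theorem bb_nonneg (lit : Λ → Set Ω) (S : Set Ω) : 0 ≤ bb lit S :=
  av_nonneg fun _ => sub_nonneg.2 (ind_le_one _)

variable [Nonempty Λ]

theorem bb_le_one (lit : Λ → Set Ω) (S : Set Ω) : bb lit S ≤ 1 :=
  av_le fun _ => sub_le_self _ (ind_nonneg _)

theorem T_lit_ind (lit : Λ → Set Ω) (S : Set Ω) : T lit ind S = 1 - bb lit S := by
  rw [bb, av_sub, av_const, T_apply]; ring

omit [Fintype Λ] [Nonempty Λ] in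
theorem ind_inter_cl (k : ℕ) (lit : Λ → Set Ω) (S : Set Ω) (c : Fin k → Λ) :
    ind (S ∩ cl k lit c) = 1 - ∏ i, (1 - ind (S ∩ lit (c i))) := by
  rcases (S ∩ cl k lit c).eq_empty_or_nonempty with h | h
  · rw [h, ind_empty, Finset.prod_eq_one, sub_self]
    intro i _
    have : S ∩ lit (c i) = ∅ := by
      rw [Set.eq_empty_iff_forall_notMem] at h ⊢
      exact fun σ hσ => h σ ⟨hσ.1, i, hσ.2⟩
    rw [this, ind_empty, sub_zero]
  · rw [ind_of_nonempty h]
    obtain ⟨σ, hσ, i, hi⟩ := h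
    have h' : (S ∩ lit (c i)).Nonempty := ⟨σ, hσ, hi⟩
    rw [Finset.prod_eq_zero (Finset.mem_univ i), sub_zero]
    rw [ind_of_nonempty h', sub_self]

theorem T_cl_ind (k : ℕ) (lit : Λ → Set Ω) (S : Set Ω) :
    T (cl k lit) ind S = 1 - bb lit S ^ k := by
  rw [T_apply]
  simp only [ind_inter_cl]
  rw [av_sub, av_const, av_pi_prod (fun (_ : Fin k) l => 1 - ind (S ∩ lit l))]
  simp [bb]

theorem hazard_bound {k : ℕ} (hk : 3 ≤ k) (lit : Λ → Set Ω) {θ : ℝ} (hθ : 0 < θ) (M₀ M : ℕ)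
    (hM : M ≤ M₀) (S : Set Ω) :
    (ind S - T (cl k lit) ind S) * life (cl k lit) M S ≤
      (M₀ * θ ^ 2 + 1 / θ) * (ind S - T lit ind S) := by
  rcases S.eq_empty_or_nonempty with rfl | hS
  · simp [life_empty, T_apply, ind_empty, av_zero]
  have h1 := hazard_mul_life_le (cl k lit) M S
  have h2 := life_le (cl k lit) M S
  have h3 := life_nonneg (cl k lit) M S
  rw [T_cl_ind, ind_of_nonempty hS] at h1 ⊢
  rw [T_lit_ind]
  have hb0 := bb_nonneg lit S
  have hb1 := bb_le_one lit S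
  set b := bb lit S
  set g := life (cl k lit) M S
  have hM' : (M : ℝ) ≤ M₀ := by exact_mod_cast hM
  have hM0 : (0 : ℝ) ≤ M₀ := Nat.cast_nonneg _
  simp only [sub_sub_cancel] at h1 ⊢
  have hθ' : 0 < 1 / θ := by positivity
  rcases le_or_gt b θ with h | h
  · have h4 : b ^ k ≤ b ^ 3 := pow_le_pow_of_le_one hb0 hb1 hk
    have h5 : b ^ 2 ≤ θ ^ 2 := pow_le_pow_left₀ hb0 h 2
    calc b ^ k * g ≤ b ^ 3 * M₀ := mul_le_mul h4 (h2.trans hM') h3 (by positivity)
      _ = (M₀ * b ^ 2) * b := by ring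
      _ ≤ (M₀ * θ ^ 2) * b := by gcongr
      _ ≤ (M₀ * θ ^ 2 + 1 / θ) * b := by gcongr; linarith
  · have h4 : 1 ≤ 1 / θ * b := by
      rw [one_div, inv_mul_eq_div, one_le_div hθ]; exact h.le
    have : 0 ≤ M₀ * θ ^ 2 * b := by positivity
    nlinarith

end lits

section hybrid
variable {Ω Γ Γ' : Type*} [Fintype Γ] [Fintype Γ'] [Nonempty Γ]

theorem life_sub_le (A : Γ → Set Ω) (B : Γ' → Set Ω) (M₀ : ℕ) {Y : ℝ}
    (hY : ∀ M ≤ M₀, ∀ S, cum (T B) M (T B ind - T A ind) S ≤ Y) (M : ℕ) (hM : M ≤ M₀)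
    (S : Set Ω) : life B M S - life A M S ≤ M * Y := by
  induction M generalizing S with
  | zero => simp [life_zero]
  | succ M ih =>
    have e1 : T B (life B M) S - T A (life B M) S = cum (T B) M (T B ind - T A ind) S := by
      rw [map_sub, life, ← Module.End.mul_apply, ← Module.End.mul_apply,
        (commute_cum (Commute.refl (T B)) M).eq, (commute_cum (commute_T A B) M).eq]
      rfl
    have e2 : T A (life B M) S - T A (life A M) S ≤ M * Y := by
      rw [T_apply, T_apply, ← av_sub]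
      exact av_le fun c => ih (by omega) _
    have e3 := hY M (by omega) S
    rw [life_succ, life_succ]
    rw [T_apply, T_apply] at e1 e2
    push_cast
    linarith

end hybrid

/-- literals of propositional variables -/
def lit (n : ℕ) (l : Fin n × Bool) : Set (Fin n → Bool) := {σ | σ l.1 = l.2}

/-- lenient literals: those on the variable x are always true -/
def litL (n : ℕ) (x : Fin n) (l : Fin n × Bool) : Set (Fin n → Bool) :=
  {σ | l.1 = x ∨ σ l.1 = l.2}

section sat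
variable {n : ℕ} [NeZero n]

omit [NeZero n] in
theorem bb_litL_le (x : Fin n) (S : Set (Fin n → Bool)) : bb (litL n x) S ≤ bb (lit n) S :=
  av_mono fun l => sub_le_sub_left
    (ind_mono_map (π := id) (S := S ∩ lit n l) (S' := S ∩ litL n x l)
      fun _ hσ => ⟨hσ.1, Or.inr hσ.2⟩) _

omit [NeZero n] in
theorem bb_sub_le (x : Fin n) (S : Set (Fin n → Bool)) :
    bb (lit n) S - bb (litL n x) S ≤ 1 / n := by
  rw [bb, bb, ← av_sub]
  have h : av (fun l : Fin n × Bool => if l.1 = x then (1 : ℝ) else 0) = 1 / n := by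
    rw [av_prod]
    have : ∀ i : Fin n, av (fun j : Bool => if (i, j).1 = x then (1 : ℝ) else 0) =
        if i = x then 1 else 0 := fun i => av_const (ι := Bool) (if i = x then (1 : ℝ) else 0)
    simp only [this]
    simp [av]
  rw [← h]
  refine av_mono fun l => ?_
  split_ifs with hl
  · linarith [ind_nonneg (S ∩ lit n l), ind_le_one (S ∩ litL n x l)]
  · have : litL n x l = lit n l := by ext σ; simp [litL, lit, hl]
    rw [this]; simp

theorem lenient_step {k : ℕ} (hk : 3 ≤ k) (x : Fin n) {θ : ℝ} (hθ : 1 / (n : ℝ) ≤ θ)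
    (S : Set (Fin n → Bool)) :
    T (cl k (litL n x)) ind S - T (cl k (lit n)) ind S ≤
      k / n * (4 * θ ^ 2) + k / n * (2 ^ k / θ) * (ind S - T (cl k (litL n x)) ind S) := by
  have hn : (0 : ℝ) < n := by exact_mod_cast Nat.pos_of_ne_zero (NeZero.ne n)
  have hθ0 : 0 < θ := lt_of_lt_of_le (by positivity) hθ
  rcases S.eq_empty_or_nonempty with rfl | hS
  · simp only [T_apply, Set.empty_inter, ind_empty, av_zero, sub_self, mul_zero, add_zero]
    positivity
  rw [T_cl_ind, T_cl_ind, ind_of_nonempty hS]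
  have hb0 := bb_nonneg (litL n x) S
  have hb1 := bb_le_one (lit n) S
  have hb2 := bb_litL_le x S
  have hb3 := bb_sub_le x S
  set b := bb (lit n) S
  set b' := bb (litL n x) S
  have hb : 0 ≤ b := hb0.trans hb2
  have h1 : b ^ k - b' ^ k ≤ k / n * b ^ (k - 1) := by
    have := abs_pow_sub_pow_le b b' k
    rw [abs_of_nonneg (sub_nonneg.2 hb2), abs_of_nonneg hb, abs_of_nonneg hb0, max_eq_left hb2]
      at this
    calc b ^ k - b' ^ k ≤ (b - b') * k * b ^ (k - 1) := (le_abs_self _).trans this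
      _ ≤ (1 / n) * k * b ^ (k - 1) := by gcongr
      _ = k / n * b ^ (k - 1) := by ring
  have h2 : b ^ (k - 1) ≤ 4 * θ ^ 2 + 2 ^ k / θ * b' ^ k := by
    rcases le_or_gt b (2 * θ) with h | h
    · have h4 : b ^ (k - 1) ≤ b ^ 2 := pow_le_pow_of_le_one hb hb1 (by omega)
      have h5 : b ^ 2 ≤ (2 * θ) ^ 2 := pow_le_pow_left₀ hb h 2
      have : 0 ≤ 2 ^ k / θ * b' ^ k := by positivity
      nlinarith
    · have h4 : b ≤ 2 * b' := by linarith
      have h5 : b ^ k ≤ 2 ^ k * b' ^ k := by rw [← mul_pow]; exact pow_le_pow_left₀ hb h4 k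
      have h6 : b ^ (k - 1) * θ ≤ b ^ k := by
        obtain ⟨j, rfl⟩ : ∃ j, k = j + 1 := ⟨k - 1, by omega⟩
        rw [Nat.add_sub_cancel, pow_succ]
        exact mul_le_mul_of_nonneg_left (by linarith) (pow_nonneg hb _)
      have h7 : b ^ (k - 1) ≤ 2 ^ k / θ * b' ^ k := by
        rw [div_mul_eq_mul_div, le_div_iff₀ hθ0]; linarith
      nlinarith [sq_nonneg θ]
  have h3 : (k : ℝ) / n * b ^ (k - 1) ≤ k / n * (4 * θ ^ 2 + 2 ^ k / θ * b' ^ k) := by gcongr
  nlinarith

theorem lenient_cum {k : ℕ} (hk : 3 ≤ k) (x : Fin n) {θ : ℝ} (hθ : 1 / (n : ℝ) ≤ θ)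
    (M₀ M : ℕ) (hM : M ≤ M₀) (S : Set (Fin n → Bool)) :
    cum (T (cl k (litL n x))) M (T (cl k (litL n x)) ind - T (cl k (lit n)) ind) S ≤
      k / n * (4 * M₀ * θ ^ 2 + 2 ^ k / θ) := by
  have hn : (0 : ℝ) < n := by exact_mod_cast Nat.pos_of_ne_zero (NeZero.ne n)
  have hθ0 : 0 < θ := lt_of_lt_of_le (by positivity) hθ
  have h1 := (isPos_T (cl k (litL n x))).cum M
    (T (cl k (litL n x)) ind - T (cl k (lit n)) ind)
    ((fun _ => k / n * (4 * θ ^ 2)) +
      (k / n * (2 ^ k / θ) : ℝ) • (ind - T (cl k (litL n x)) ind))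
    (fun S => lenient_step hk x hθ S) S
  rw [map_add, map_smul, cum_telescope, Pi.add_apply, cum_const] at h1
  refine h1.trans ?_
  have h2 := surv_nonneg (cl k (litL n x)) M S
  have h3 := ind_le_one S
  have h4 : ind S - (T (cl k (litL n x)) ^ M) ind S ≤ 1 := by
    unfold surv at h2; linarith
  have hM' : (M : ℝ) ≤ M₀ := by exact_mod_cast hM
  rw [Pi.smul_apply, smul_eq_mul, Pi.sub_apply]
  calc _ ≤ M₀ * (k / n * (4 * θ ^ 2)) + k / n * (2 ^ k / θ) * 1 := by gcongr
    _ = _ := by ring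

theorem unit_cost {k : ℕ} (hk : 3 ≤ k) {θ : ℝ} (hθ : 1 / (n : ℝ) ≤ θ) (M : ℕ)
    (l : Fin n × Bool) :
    life (cl k (lit n)) M Set.univ - life (cl k (lit n)) M (Set.univ ∩ lit n l) ≤
      M * (k / n * (4 * M * θ ^ 2 + 2 ^ k / θ)) := by
  have h1 := life_sub_le (cl k (lit n)) (cl k (litL n l.1)) M
    (fun M' hM' S => lenient_cum hk l.1 hθ M M' hM' S) M le_rfl (Set.univ ∩ lit n l)
  have h2 : life (cl k (lit n)) M Set.univ ≤ life (cl k (litL n l.1)) M (Set.univ ∩ lit n l) := by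
    rw [life_eq, life_eq]
    refine Finset.sum_le_sum fun m _ => surv_mono_map
      (π := fun σ => Function.update σ l.1 l.2) (fun c σ hσ => ?_) m (fun σ _ => ?_)
    · obtain ⟨i, hi⟩ := hσ
      refine ⟨i, ?_⟩
      by_cases h : (c i).1 = l.1
      · exact Or.inl h
      · right; show Function.update σ l.1 l.2 (c i).1 = (c i).2
        rw [Function.update_of_ne h]; exact hi
    · exact ⟨trivial, by simp [lit]⟩
  linarith

theorem sat_variance {k : ℕ} (hk : 3 ≤ k) {θ : ℝ} (hθ : 1 / (n : ℝ) ≤ θ) (M : ℕ) :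
    (∑ m ∈ range M, (2 * (m : ℝ) + 1) * surv (cl k (lit n)) m Set.univ) -
        life (cl k (lit n)) M Set.univ ^ 2 ≤
      2 * M * ((M * θ ^ 2 + 1 / θ) * (M * (k / n * (4 * M * θ ^ 2 + 2 ^ k / θ)))) := by
  have hn : (0 : ℝ) < n := by exact_mod_cast Nat.pos_of_ne_zero (NeZero.ne n)
  have hθ0 : 0 < θ := lt_of_lt_of_le (by positivity) hθ
  have h0 : (0 : Set (Fin n → Bool) → ℝ) ≤ (M * θ ^ 2 + 1 / θ : ℝ) • (ind - T (lit n) ind) := by
    intro S
    have := surv_le_ind (lit n) 1 S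
    rw [surv, pow_one] at this
    exact mul_nonneg (by positivity) (sub_nonneg.2 this)
  have h1 := variance_le (cl k (lit n)) M h0
    (fun M' hM' S => hazard_bound hk (lit n) hθ0 M M' hM' S) M le_rfl Set.univ
  refine h1.trans ?_
  rw [map_smul, Pi.smul_apply, smul_eq_mul, map_sub, ← Module.End.mul_apply,
    ← (commute_cum (commute_T (lit n) (cl k (lit n))) M).eq, Module.End.mul_apply, Pi.sub_apply,
    T_apply, ← life]
  have h2 : life (cl k (lit n)) M Set.univ -
      av (fun l => life (cl k (lit n)) M (Set.univ ∩ lit n l)) ≤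
      M * (k / n * (4 * M * θ ^ 2 + 2 ^ k / θ)) := by
    rw [← av_const (ι := Fin n × Bool) (life (cl k (lit n)) M Set.univ), ← av_sub]
    exact av_le fun l => unit_cost hk hθ M l
  gcongr

end sat

end Vale.Agent.P170
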