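import Mathlib

namespace Vale.Agent.P170

/-- A literal on the variables `Fin n` is a pair `(i, b)`, true under an assignment `σ` when
`σ i = b`. A proper `k`-clause is a set of `k` literals on `k` distinct variables. -/
def IsProperClause {n : ℕ} (k : ℕ) (C : Finset (Fin n × Bool)) : Prop :=
  C.card = k ∧ Set.InjOn Prod.fst (C : Set (Fin n × Bool))

/-- The conjunction of the clauses `F 0, …, F (m-1)` is satisfiable: some assignment makes
at least one literal of every clause true. -/
def Satisfiable {n m : ℕ} (F : Fin m → Finset (Fin n × Bool)) : Prop :=
  ∃ σ : Fin n → Bool, ∀ i, ∃ l ∈ F i, σ l.1 = l.2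

/-- The probability that the conjunction of `m` independent uniform proper `k`-clauses on `n`
variables is satisfiable: the fraction of satisfiable ones among all ordered `m`-tuples of
proper `k`-clauses (repetitions allowed). -/
noncomputable def satProb (k n m : ℕ) : ℝ :=
  (Set.ncard {F : Fin m → Finset (Fin n × Bool) |
      (∀ i, IsProperClause k (F i)) ∧ Satisfiable F} : ℝ) /
    (Set.ncard {F : Fin m → Finset (Fin n × Bool) | ∀ i, IsProperClause k (F i)} : ℝ)

end Vale.Agent.P170
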