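import Vale.Agent.P170.Interp

/-!
Product representation, the first moment bound, and a linear lower bound through
the marriage theorem.
-/

namespace Vale.Agent.P170

open Finset

theorem T_pow_eq_av {Ω Γ : Type*} [Fintype Γ] (A : Γ → Set Ω) (m : ℕ) (f : Set Ω → ℝ)
    (S : Set Ω) : (T A ^ m) f S = av (fun ω : Fin m → Γ => f (S ∩ ⋂ i, A (ω i))) := by
  induction m generalizing S with
  | zero => simp [av]
  | succ m ih =>
    rw [T_pow_succ, ← av_equiv (Fin.consEquiv (fun _ => Γ)), av_prod]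
    congr 1; funext c
    rw [ih]
    congr 1; funext ω
    congr 1
    ext σ
    simp [Fin.forall_fin_succ, Fin.consEquiv, and_assoc]

theorem bb_singleton {n : ℕ} [NeZero n] (σ : Fin n → Bool) : bb (lit n) {σ} = 1 / 2 := by
  rw [bb, av_prod, ← av_const (ι := Fin n) (1 / 2 : ℝ)]
  congr 1; funext i
  have h1 : ({σ} ∩ lit n (i, σ i) : Set _).Nonempty := ⟨σ, rfl, rfl⟩
  have h2 : ({σ} ∩ lit n (i, !σ i) : Set _) = ∅ := by
    ext τ; simp only [lit, Set.mem_inter_iff, Set.mem_singleton_iff, Set.mem_ofPred_eq,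
      Set.mem_empty_iff_false, iff_false, not_and]
    rintro rfl; simp
  rw [av, Fintype.sum_bool]
  cases h : σ i
  · rw [h] at h1 h2
    simp only [Bool.not_false] at h2
    rw [h2, ind_of_nonempty h1, ind_empty]; simp
  · rw [h] at h1 h2
    simp only [Bool.not_true] at h2
    rw [h2, ind_of_nonempty h1, ind_empty]; simp

theorem Pi'_first_moment (k n m : ℕ) [NeZero n] :
    Pi' k n m ≤ 2 ^ n * (1 - (1 / 2) ^ k) ^ m := by
  rw [Pi', surv, T_pow_eq_av]
  have h : ∀ ω : Fin m → Fin k → Fin n × Bool, ind (Set.univ ∩ ⋂ i, cl k (lit n) (ω i)) ≤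
      ∑ σ : Fin n → Bool, ∏ i, ind ({σ} ∩ cl k (lit n) (ω i)) := by
    intro ω
    have h0 : ∀ σ : Fin n → Bool, 0 ≤ ∏ i, ind ({σ} ∩ cl k (lit n) (ω i)) :=
      fun σ => Finset.prod_nonneg fun i _ => ind_nonneg _
    rcases (Set.univ ∩ ⋂ i, cl k (lit n) (ω i)).eq_empty_or_nonempty with h | h
    · rw [h, ind_empty]; exact Finset.sum_nonneg fun σ _ => h0 σ
    · rw [ind_of_nonempty h]
      obtain ⟨σ, -, hσ⟩ := h
      refine le_trans ?_ (Finset.single_le_sum (fun σ _ => h0 σ) (Finset.mem_univ σ))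
      rw [Finset.prod_eq_one]
      intro i _
      exact ind_of_nonempty ⟨σ, rfl, Set.mem_iInter.1 hσ i⟩
  refine (av_mono h).trans ?_
  rw [av_sum]
  have h2 : ∀ σ : Fin n → Bool, av (fun ω : Fin m → Fin k → Fin n × Bool =>
      ∏ i, ind ({σ} ∩ cl k (lit n) (ω i))) = (1 - (1 / 2) ^ k) ^ m := by
    intro σ
    rw [av_pi_prod (fun (_ : Fin m) c => ind ({σ} ∩ cl k (lit n) c)), ← T_apply, T_cl_ind,
      bb_singleton]
    simp
  simp only [h2]
  simp

theorem exists_dense {k n m : ℕ} (hmn : m ≤ n) (ω : Fin m → Fin k → Fin n × Bool)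
    (h : (Set.univ ∩ ⋂ i, cl k (lit n) (ω i)) = ∅) :
    ∃ (I : Finset (Fin m)) (W : Finset (Fin n)), I.Nonempty ∧ W.card = I.card ∧
      ∀ i ∈ I, ∀ j, (ω i j).1 ∈ W := by
  by_contra hne
  have hall : ∀ I : Finset (Fin m),
      I.card ≤ (I.biUnion fun i => univ.image fun j => (ω i j).1).card := by
    intro I
    by_contra hlt
    push Not at hlt
    have hI : I.card ≤ (univ : Finset (Fin n)).card := by
      have := I.card_le_univ
      simp only [Fintype.card_fin, card_univ] at this ⊢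
      omega
    obtain ⟨W, hW1, -, hW3⟩ := Finset.exists_subsuperset_card_eq (Finset.subset_univ _) hlt.le hI
    refine hne ⟨I, W, Finset.card_pos.1 (by omega), hW3, fun i hi j => hW1 ?_⟩
    simp only [mem_biUnion, mem_image, mem_univ, true_and]
    exact ⟨i, hi, j, rfl⟩
  obtain ⟨f, hf, hf'⟩ := (Finset.all_card_le_biUnion_card_iff_exists_injective _).1 hall
  simp only [mem_image, mem_univ, true_and] at hf'
  choose j hj using hf'
  have : Function.extend f (fun i => (ω i (j i)).2) (fun _ => false) ∈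
      (Set.univ ∩ ⋂ i, cl k (lit n) (ω i)) := by
    refine ⟨trivial, Set.mem_iInter.2 fun i => ⟨j i, ?_⟩⟩
    show Function.extend f (fun i => (ω i (j i)).2) (fun _ => false) (ω i (j i)).1 = _
    rw [hj, hf.extend_apply]
  rw [h] at this
  exact this

theorem hall_term {k n m s : ℕ} (hk : 2 ≤ k) (hn : 0 < n) (hm : 27 * m ≤ n) (hs : s ≤ m) :
    (m.choose s : ℝ) * (n.choose s * (((s : ℝ) / n) ^ k) ^ s) ≤ (1 / 3) ^ s := by
  have hn' : (0 : ℝ) < n := by exact_mod_cast hn
  have hm' : 27 * (m : ℝ) ≤ n := by exact_mod_cast hm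
  have hs' : (s : ℝ) ≤ n := by exact_mod_cast (by omega : s ≤ n)
  have h1 : (m.choose s : ℝ) ≤ (m : ℝ) ^ s / s.factorial := Nat.choose_le_pow_div s m
  have h2 : (n.choose s : ℝ) ≤ (n : ℝ) ^ s / s.factorial := Nat.choose_le_pow_div s n
  have h3 : ((s : ℝ) / n) ^ k ≤ ((s : ℝ) / n) ^ 2 :=
    pow_le_pow_of_le_one (by positivity) ((div_le_one hn').2 hs') hk
  have h4 : (s : ℝ) ^ s / s.factorial ≤ 3 ^ s := by
    refine (Real.pow_div_factorial_le_exp _ (Nat.cast_nonneg s) s).trans ?_
    rw [← Real.exp_one_pow]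
    exact pow_le_pow_left₀ (Real.exp_pos _).le Real.exp_one_lt_three.le s
  have hf : (0 : ℝ) < s.factorial := by exact_mod_cast s.factorial_pos
  calc (m.choose s : ℝ) * (n.choose s * (((s : ℝ) / n) ^ k) ^ s)
      ≤ (m : ℝ) ^ s / s.factorial * ((n : ℝ) ^ s / s.factorial * (((s : ℝ) / n) ^ 2) ^ s) := by
        gcongr
    _ = ((m : ℝ) / n) ^ s * ((s : ℝ) ^ s / s.factorial) ^ 2 := by
        rw [← pow_mul, mul_comm 2 s, pow_mul]
        simp only [div_pow]
        field_simp
    _ ≤ (1 / 27) ^ s * (3 ^ s) ^ 2 := by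
        have h5 : (m : ℝ) / n ≤ 1 / 27 := by
          rw [div_le_div_iff₀ hn' (by norm_num)]; linarith
        have h6 : ((m : ℝ) / n) ^ s ≤ (1 / 27) ^ s := pow_le_pow_left₀ (by positivity) h5 s
        exact mul_le_mul h6 (pow_le_pow_left₀ (by positivity) h4 2) (by positivity)
          (by positivity)
    _ = (1 / 3) ^ s := by
        rw [← pow_mul, mul_comm s 2, pow_mul, ← mul_pow]; norm_num

theorem Pi'_lower {k n m : ℕ} (hk : 2 ≤ k) (hn : 0 < n) (hm : 27 * m ≤ n) :
    1 / 2 ≤ Pi' k n m := by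
  classical
  have : NeZero n := ⟨hn.ne'⟩
  rw [Pi', surv, T_pow_eq_av]
  let E : Finset (Fin m) → Finset (Fin n) → (Fin m → Fin k → Fin n × Bool) → ℝ := fun I W ω =>
    ∏ i, if i ∈ I then ∏ j, (if (ω i j).1 ∈ W then (1 : ℝ) else 0) else 1
  have hE0 : ∀ I W ω, 0 ≤ E I W ω := fun I W ω => Finset.prod_nonneg fun i _ => by
    split_ifs
    · exact Finset.prod_nonneg fun j _ => by split_ifs <;> norm_num
    · norm_num
  have h : ∀ ω : Fin m → Fin k → Fin n × Bool, 1 - ∑ s ∈ range m,
      ∑ I ∈ powersetCard (s + 1) univ, ∑ W ∈ powersetCard (s + 1) univ, E I W ω ≤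
      ind (Set.univ ∩ ⋂ i, cl k (lit n) (ω i)) := by
    intro ω
    have h0 : ∀ s I, 0 ≤ ∑ W ∈ powersetCard (s + 1) univ, E I W ω :=
      fun s I => Finset.sum_nonneg fun W _ => hE0 _ _ _
    have h1 : ∀ s, 0 ≤ ∑ I ∈ powersetCard (s + 1) univ, ∑ W ∈ powersetCard (s + 1) univ,
        E I W ω := fun s => Finset.sum_nonneg fun I _ => h0 s I
    rcases (Set.univ ∩ ⋂ i, cl k (lit n) (ω i)).eq_empty_or_nonempty with h | h
    · obtain ⟨I, W, hI, hW, hIW⟩ := exists_dense (by omega) ω h
      rw [h, ind_empty, sub_nonpos]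
      obtain ⟨s, hs⟩ : ∃ s, I.card = s + 1 := ⟨I.card - 1, by have := hI.card_pos; omega⟩
      have hsm : s ∈ range m := by
        have := I.card_le_univ
        simp only [Fintype.card_fin] at this
        simp only [mem_range]; omega
      refine le_trans ?_ (Finset.single_le_sum (fun s _ => h1 s) hsm)
      refine le_trans ?_ (Finset.single_le_sum (fun I _ => h0 s I)
        (show I ∈ powersetCard (s + 1) univ by simp [hs]))
      refine le_trans ?_ (Finset.single_le_sum (fun W _ => hE0 I W ω)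
        (show W ∈ powersetCard (s + 1) univ by simp [hs, hW]))
      refine (Finset.prod_eq_one fun i _ => ?_).ge
      split_ifs with hi
      · exact Finset.prod_eq_one fun j _ => if_pos (hIW i hi j)
      · rfl
    · rw [ind_of_nonempty h]
      exact sub_le_self _ (Finset.sum_nonneg fun s _ => h1 s)
  refine le_trans ?_ (av_mono h)
  have hav : ∀ I W, av (E I W) = (((W.card : ℝ) / n) ^ k) ^ I.card := by
    intro I W
    have e1 : av (fun l : Fin n × Bool => if l.1 ∈ W then (1 : ℝ) else 0) = W.card / n := by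
      rw [av_prod]
      have : ∀ i : Fin n, av (fun j : Bool => if (i, j).1 ∈ W then (1 : ℝ) else 0) =
        if i ∈ W then 1 else 0 := fun i => av_const (ι := Bool) (if i ∈ W then (1 : ℝ) else 0)
      simp only [this]
      simp [av]
    have e2 : av (fun c : Fin k → Fin n × Bool => ∏ j, (if (c j).1 ∈ W then (1 : ℝ) else 0)) =
        ((W.card : ℝ) / n) ^ k := by
      rw [av_pi_prod (fun (_ : Fin k) (l : Fin n × Bool) => if l.1 ∈ W then (1 : ℝ) else 0), e1,
        Finset.prod_const, card_univ, Fintype.card_fin]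
    have e3 := av_pi_prod (fun (i : Fin m) (c : Fin k → Fin n × Bool) =>
      if i ∈ I then ∏ j, (if (c j).1 ∈ W then (1 : ℝ) else 0) else 1)
    refine e3.trans ?_
    have e4 : ∀ i : Fin m, av (fun c : Fin k → Fin n × Bool =>
        if i ∈ I then ∏ j, (if (c j).1 ∈ W then (1 : ℝ) else 0) else 1) =
        if i ∈ I then ((W.card : ℝ) / n) ^ k else 1 := by
      intro i
      split_ifs
      · exact e2
      · exact av_const _
    simp only [e4]
    rw [Finset.prod_ite_mem, Finset.univ_inter, Finset.prod_const]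
  rw [av_sub, av_const, av_sum]
  have h5 : ∀ s ∈ range m, av (fun ω => ∑ I ∈ powersetCard (s + 1) univ,
      ∑ W ∈ powersetCard (s + 1) univ, E I W ω) ≤ (1 / 3) ^ (s + 1) := by
    intro s hs
    rw [av_sum]
    have : ∀ I ∈ powersetCard (s + 1) (univ : Finset (Fin m)),
        av (fun ω => ∑ W ∈ powersetCard (s + 1) univ, E I W ω) =
        n.choose (s + 1) * ((((s + 1 : ℕ) : ℝ) / n) ^ k) ^ (s + 1) := by
      intro I hI
      rw [av_sum, Finset.sum_congr rfl (g := fun _ => ((((s + 1 : ℕ) : ℝ) / n) ^ k) ^ (s + 1))]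
      · simp
      · intro W hW
        rw [hav, (mem_powersetCard.1 hI).2, (mem_powersetCard.1 hW).2]
    rw [Finset.sum_congr rfl this, Finset.sum_const, card_powersetCard, card_univ,
      Fintype.card_fin, nsmul_eq_mul]
    exact hall_term hk hn hm (by simpa using hs)
  have h6 : ∀ m : ℕ, ∑ s ∈ range m, (1 / 3 : ℝ) ^ (s + 1) = 1 / 2 - 1 / 2 * (1 / 3) ^ m := by
    intro m
    induction m with
    | zero => simp
    | succ m ih => rw [Finset.sum_range_succ, ih]; ring
  have h7 := Finset.sum_le_sum h5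
  rw [h6] at h7
  have : (0 : ℝ) ≤ (1 / 3) ^ m := by positivity
  linarith

end Vale.Agent.P170
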