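import Vale.Agent.P170.Clause

/-!
The interpolation inequality of Bayati, Gamarnik and Tetali for satisfiability probabilities.
-/

namespace Vale.Agent.P170

open Finset

/-- satisfiability probability in the model with independent literals -/
noncomputable def Pi' (k n m : ℕ) : ℝ := surv (cl k (lit n)) m Set.univ

theorem pow_le_pow_of_commute {Ω : Type*} {L U : Module.End ℝ (Set Ω → ℝ)} (hL : IsPos L)
    (hU : IsPos U) (hc : Commute L U) {f : Set Ω → ℝ} (h : U f ≤ L f) (m : ℕ) :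
    (U ^ m) f ≤ (L ^ m) f := by
  induction m with
  | zero => simp
  | succ m ih =>
    calc (U ^ (m + 1)) f = U ((U ^ m) f) := by rw [pow_succ']; rfl
      _ ≤ U ((L ^ m) f) := hU _ _ ih
      _ = (L ^ m) (U f) := by
          rw [← Module.End.mul_apply, ← (hc.pow_left m).eq, Module.End.mul_apply]
      _ ≤ (L ^ m) (L f) := hL.pow m _ _ h
      _ = (L ^ (m + 1)) f := by rw [pow_succ]; rfl

/-- literals on the first block -/
def litA (n₁ n₂ : ℕ) (l : Fin n₁ × Bool) : Set (Fin (n₁ + n₂) → Bool) :=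
  {σ | σ (Fin.castAdd n₂ l.1) = l.2}

/-- literals on the second block -/
def litB (n₁ n₂ : ℕ) (l : Fin n₂ × Bool) : Set (Fin (n₁ + n₂) → Bool) :=
  {σ | σ (Fin.natAdd n₁ l.1) = l.2}

/-- product of two sets of assignments -/
def tens {n₁ n₂ : ℕ} (S₁ : Set (Fin n₁ → Bool)) (S₂ : Set (Fin n₂ → Bool)) :
    Set (Fin (n₁ + n₂) → Bool) :=
  {σ | (fun i => σ (Fin.castAdd n₂ i)) ∈ S₁ ∧ (fun i => σ (Fin.natAdd n₁ i)) ∈ S₂}

/-- the split clause operator -/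
noncomputable def U (k n₁ n₂ : ℕ) : Module.End ℝ (Set (Fin (n₁ + n₂) → Bool) → ℝ) :=
  ((n₁ : ℝ) / (n₁ + n₂)) • T (cl k (litA n₁ n₂)) + ((n₂ : ℝ) / (n₁ + n₂)) • T (cl k (litB n₁ n₂))

section
variable {k n₁ n₂ : ℕ}

theorem U_apply (f : Set (Fin (n₁ + n₂) → Bool) → ℝ) (S : Set (Fin (n₁ + n₂) → Bool)) :
    U k n₁ n₂ f S = (n₁ : ℝ) / (n₁ + n₂) * av (fun c => f (S ∩ cl k (litA n₁ n₂) c)) +
      (n₂ : ℝ) / (n₁ + n₂) * av (fun c => f (S ∩ cl k (litB n₁ n₂) c)) := rfl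

theorem isPos_U : IsPos (U k n₁ n₂) := by
  intro f g h S
  rw [U_apply, U_apply]
  have h1 := av_mono (fun c => h (S ∩ cl k (litA n₁ n₂) c))
  have h2 := av_mono (fun c => h (S ∩ cl k (litB n₁ n₂) c))
  gcongr

theorem tens_univ : tens (Set.univ : Set (Fin n₁ → Bool)) (Set.univ : Set (Fin n₂ → Bool)) =
    Set.univ := by
  ext σ; simp [tens]

theorem tens_inter_A (S₁ : Set (Fin n₁ → Bool)) (S₂ : Set (Fin n₂ → Bool))
    (c : Fin k → Fin n₁ × Bool) :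
    tens S₁ S₂ ∩ cl k (litA n₁ n₂) c = tens (S₁ ∩ cl k (lit n₁) c) S₂ := by
  ext σ; simp only [tens, cl, litA, lit, Set.mem_inter_iff, Set.mem_ofPred_eq]; tauto

theorem tens_inter_B (S₁ : Set (Fin n₁ → Bool)) (S₂ : Set (Fin n₂ → Bool))
    (c : Fin k → Fin n₂ × Bool) :
    tens S₁ S₂ ∩ cl k (litB n₁ n₂) c = tens S₁ (S₂ ∩ cl k (lit n₂) c) := by
  ext σ; simp only [tens, cl, litB, lit, Set.mem_inter_iff, Set.mem_ofPred_eq]; tauto

theorem ind_tens (S₁ : Set (Fin n₁ → Bool)) (S₂ : Set (Fin n₂ → Bool)) :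
    ind S₁ * ind S₂ ≤ ind (tens S₁ S₂) := by
  rcases S₁.eq_empty_or_nonempty with rfl | ⟨σ₁, h₁⟩
  · rw [ind_empty, zero_mul]; exact ind_nonneg _
  rcases S₂.eq_empty_or_nonempty with rfl | ⟨σ₂, h₂⟩
  · rw [ind_empty, mul_zero]; exact ind_nonneg _
  have : (tens S₁ S₂).Nonempty := ⟨Fin.append σ₁ σ₂, by simpa [tens] using ⟨h₁, h₂⟩⟩
  rw [ind_of_nonempty this]
  exact mul_le_one₀ (ind_le_one _) (ind_nonneg _) (ind_le_one _)

variable [NeZero n₁] [NeZero n₂]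

theorem bb_split (S : Set (Fin (n₁ + n₂) → Bool)) :
    bb (lit (n₁ + n₂)) S = (n₁ : ℝ) / (n₁ + n₂) * bb (litA n₁ n₂) S +
      (n₂ : ℝ) / (n₁ + n₂) * bb (litB n₁ n₂) S := by
  have h1 : (0 : ℝ) < n₁ := by exact_mod_cast Nat.pos_of_ne_zero (NeZero.ne n₁)
  have h2 : (0 : ℝ) < n₂ := by exact_mod_cast Nat.pos_of_ne_zero (NeZero.ne n₂)
  rw [bb, bb, bb, av_prod, av_prod, av_prod]
  set F : Fin (n₁ + n₂) → ℝ := fun i => av (fun j : Bool => 1 - ind (S ∩ lit (n₁ + n₂) (i, j)))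
  have e1 : (fun i => av (fun j : Bool => 1 - ind (S ∩ litA n₁ n₂ (i, j)))) =
      fun i => F (Fin.castAdd n₂ i) := rfl
  have e2 : (fun i => av (fun j : Bool => 1 - ind (S ∩ litB n₁ n₂ (i, j)))) =
      fun i => F (Fin.natAdd n₁ i) := rfl
  rw [e1, e2]
  simp only [av, Fin.sum_univ_add, Fintype.card_fin]
  push_cast
  field_simp

theorem U_ind_le : U k n₁ n₂ ind ≤ T (cl k (lit (n₁ + n₂))) ind := by
  intro S
  have h1 : (0 : ℝ) < n₁ := by exact_mod_cast Nat.pos_of_ne_zero (NeZero.ne n₁)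
  have h2 : (0 : ℝ) < n₂ := by exact_mod_cast Nat.pos_of_ne_zero (NeZero.ne n₂)
  rw [U_apply, ← T_apply, ← T_apply, T_cl_ind, T_cl_ind, T_cl_ind, bb_split]
  have hs : (n₁ : ℝ) / (n₁ + n₂) + (n₂ : ℝ) / (n₁ + n₂) = 1 := by field_simp
  have := (convexOn_pow k).2 (bb_nonneg (litA n₁ n₂) S) (bb_nonneg (litB n₁ n₂) S)
    (show (0 : ℝ) ≤ (n₁ : ℝ) / (n₁ + n₂) by positivity)
    (show (0 : ℝ) ≤ (n₂ : ℝ) / (n₁ + n₂) by positivity) hs
  simp only [smul_eq_mul] at this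
  linarith

theorem U_pow_le (m : ℕ) : (U k n₁ n₂ ^ m) ind Set.univ ≤ Pi' k (n₁ + n₂) m := by
  refine pow_le_pow_of_commute (isPos_T _) isPos_U ?_ U_ind_le m Set.univ
  exact ((commute_T _ _).smul_right _).add_right ((commute_T _ _).smul_right _)

theorem split_bound {t : ℝ} (ht : 0 ≤ t) (m : ℕ) (a b : ℕ) (u : ℝ) (S₁ : Set (Fin n₁ → Bool))
    (S₂ : Set (Fin n₂ → Bool))
    (h₁ : t ≤ u + a + 1 - (n₁ : ℝ) / (n₁ + n₂) * m)
    (h₂ : t ≤ b + 1 - u - (n₂ : ℝ) / (n₁ + n₂) * m) :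
    t ^ 2 * (surv (cl k (lit n₁)) a S₁ * surv (cl k (lit n₂)) b S₂ -
      (U k n₁ n₂ ^ m) ind (tens S₁ S₂)) ≤ u ^ 2 + m := by
  have h1 : (0 : ℝ) < n₁ := by exact_mod_cast Nat.pos_of_ne_zero (NeZero.ne n₁)
  have h2 : (0 : ℝ) < n₂ := by exact_mod_cast Nat.pos_of_ne_zero (NeZero.ne n₂)
  have hs : (n₂ : ℝ) / (n₁ + n₂) = 1 - (n₁ : ℝ) / (n₁ + n₂) := by field_simp; ring
  have hl0 : (0 : ℝ) ≤ (n₁ : ℝ) / (n₁ + n₂) := by positivity
  have hl1 : (0 : ℝ) ≤ 1 - (n₁ : ℝ) / (n₁ + n₂) := by rw [← hs]; positivity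
  have hprod : ∀ a b S₁ S₂, surv (cl k (lit n₁)) a S₁ * surv (cl k (lit n₂)) b S₂ ≤ 1 :=
    fun a b S₁ S₂ => mul_le_one₀ (surv_le_one _ _ _) (surv_nonneg _ _ _) (surv_le_one _ _ _)
  induction m generalizing a b u S₁ S₂ with
  | zero =>
    have : surv (cl k (lit n₁)) a S₁ * surv (cl k (lit n₂)) b S₂ ≤ ind (tens S₁ S₂) :=
      (mul_le_mul (surv_le_ind _ _ _) (surv_le_ind _ _ _) (surv_nonneg _ _ _)
        (ind_nonneg _)).trans (ind_tens _ _)
    simp only [pow_zero, Module.End.one_apply, Nat.cast_zero, add_zero]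
    nlinarith [sq_nonneg t, sq_nonneg u]
  | succ m ih =>
    have hUn : ∀ S, 0 ≤ (U k n₁ n₂ ^ m) ind S := fun S =>
      (isPos_U.pow m).nonneg (f := ind) ind_nonneg S
    have hm0 : (0 : ℝ) ≤ m := Nat.cast_nonneg m
    rw [pow_succ' (U k n₁ n₂), Module.End.mul_apply, U_apply, hs]
    simp only [tens_inter_A, tens_inter_B]
    set lam := (n₁ : ℝ) / (n₁ + n₂) with hlam
    rw [hs] at h₂
    push_cast at h₁ h₂ ⊢
    have hA : t ^ 2 * (surv (cl k (lit n₁)) a S₁ * surv (cl k (lit n₂)) b S₂ -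
        av (fun c => (U k n₁ n₂ ^ m) ind (tens (S₁ ∩ cl k (lit n₁) c) S₂))) ≤
        (u + 1 - lam) ^ 2 + m := by
      rcases a with _ | a
      · have h3 : t ≤ u + 1 - lam := by
          simp only [Nat.cast_zero, add_zero] at h₁
          nlinarith [mul_nonneg hl0 hm0]
        have h4 : t ^ 2 ≤ (u + 1 - lam) ^ 2 := pow_le_pow_left₀ ht h3 2
        have h5 := av_nonneg (fun c => hUn (tens (S₁ ∩ cl k (lit n₁) c) S₂))
        have h6 := hprod 0 b S₁ S₂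
        nlinarith [sq_nonneg t]
      · rw [surv_succ, ← av_mul_right, ← av_sub, ← av_mul_left]
        refine av_le fun c => ih a b _ _ _ ?_ ?_
        · push_cast at h₁; linarith
        · rw [hs]; linarith
    have hB : t ^ 2 * (surv (cl k (lit n₁)) a S₁ * surv (cl k (lit n₂)) b S₂ -
        av (fun c => (U k n₁ n₂ ^ m) ind (tens S₁ (S₂ ∩ cl k (lit n₂) c)))) ≤
        (u - lam) ^ 2 + m := by
      rcases b with _ | b
      · have h3 : t ≤ -(u - lam) := by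
          simp only [Nat.cast_zero, zero_add] at h₂
          nlinarith [mul_nonneg hl1 hm0]
        have h4 : t ^ 2 ≤ (-(u - lam)) ^ 2 := pow_le_pow_left₀ ht h3 2
        have h5 := av_nonneg (fun c => hUn (tens S₁ (S₂ ∩ cl k (lit n₂) c)))
        have h6 := hprod a 0 S₁ S₂
        nlinarith [sq_nonneg t]
      · rw [surv_succ, ← av_mul_left, ← av_sub, ← av_mul_left]
        refine av_le fun c => ih a b _ _ _ ?_ ?_
        · linarith
        · rw [hs]; push_cast at h₂; linarith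
    nlinarith [mul_le_mul_of_nonneg_left hA hl0, mul_le_mul_of_nonneg_left hB hl1,
      mul_nonneg hl0 hl1, sq_nonneg lam]

theorem Pi'_split {t : ℝ} (ht : 0 ≤ t) (m a b : ℕ)
    (h₁ : t ≤ a + 1 - (n₁ : ℝ) / (n₁ + n₂) * m)
    (h₂ : t ≤ b + 1 - (n₂ : ℝ) / (n₁ + n₂) * m) :
    t ^ 2 * (Pi' k n₁ a * Pi' k n₂ b - Pi' k (n₁ + n₂) m) ≤ m := by
  have h := split_bound (k := k) ht m a b 0 Set.univ Set.univ (by linarith) (by linarith)
  rw [tens_univ] at h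
  have h' := U_pow_le (k := k) (n₁ := n₁) (n₂ := n₂) m
  unfold Pi' at *
  nlinarith [sq_nonneg t]

omit [NeZero n₁] [NeZero n₂] in
theorem avoid_bound (m : ℕ) (S₁ : Set (Fin n₁ → Bool)) :
    ((n₁ : ℝ) / (n₁ + n₂)) ^ m * surv (cl k (lit n₁)) m S₁ ≤
      (U k n₁ n₂ ^ m) ind (tens S₁ Set.univ) := by
  induction m generalizing S₁ with
  | zero =>
    have := ind_tens S₁ (Set.univ : Set (Fin n₂ → Bool))
    rw [ind_of_nonempty Set.univ_nonempty, mul_one] at this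
    simpa [surv_zero] using this
  | succ m ih =>
    have hUn : ∀ S, 0 ≤ (U k n₁ n₂ ^ m) ind S := fun S =>
      (isPos_U.pow m).nonneg (f := ind) ind_nonneg S
    rw [pow_succ' (U k n₁ n₂), Module.End.mul_apply, U_apply, surv_succ, pow_succ', mul_assoc,
      ← av_mul_left]
    simp only [tens_inter_A]
    have h1 := av_mono fun c => ih (S₁ ∩ cl k (lit n₁) c)
    have h2 := av_nonneg (fun c => hUn (tens S₁ Set.univ ∩ cl k (litB n₁ n₂) c))
    have h3 : (0 : ℝ) ≤ (n₁ : ℝ) / (n₁ + n₂) := by positivity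
    have h4 : (0 : ℝ) ≤ (n₂ : ℝ) / (n₁ + n₂) := by positivity
    nlinarith [mul_le_mul_of_nonneg_left h1 h3, mul_nonneg h4 h2]

theorem Pi'_avoid (m : ℕ) : ((n₁ : ℝ) / (n₁ + n₂)) ^ m * Pi' k n₁ m ≤ Pi' k (n₁ + n₂) m := by
  have h := avoid_bound (k := k) (n₂ := n₂) m (Set.univ : Set (Fin n₁ → Bool))
  rw [tens_univ] at h
  exact h.trans (U_pow_le m)

end

end Vale.Agent.P170
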