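import Mathlib

/-!
From a polynomial variance bound and interpolation to a limiting threshold.
-/

namespace Vale.Agent.P170

open Finset Filter Topology

theorem cheb_upper {p : ℕ → ℝ} (hp : Antitone p) (h0 : ∀ j, 0 ≤ p j) (h1 : p 0 ≤ 1) (a : ℝ)
    {M m : ℕ} (hm : m < M) (ha : a ≤ m + 1) :
    p m * (m + 1 - a) ^ 2 ≤ a ^ 2 + ∑ j ∈ range M, p j * (2 * j + 1 - 2 * a) := by
  have key : ∀ m : ℕ, p m * (m + 1 - a) ^ 2 ≤
      a ^ 2 + ∑ j ∈ range (m + 1), p j * (2 * j + 1 - 2 * a) := by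
    intro m
    induction m with
    | zero =>
      simp only [Nat.cast_zero, zero_add, range_one, sum_singleton, mul_zero]
      nlinarith [mul_nonneg (sub_nonneg.2 h1) (sq_nonneg a)]
    | succ m ih =>
      rw [Finset.sum_range_succ]
      have := hp (Nat.le_succ m)
      push_cast
      nlinarith [mul_nonneg (sub_nonneg.2 this) (sq_nonneg ((m : ℝ) + 1 - a))]
  refine (key m).trans (add_le_add le_rfl ?_)
  refine Finset.sum_le_sum_of_subset_of_nonneg (Finset.range_subset_range.2 hm) fun j _ hj => ?_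
  have : (m : ℝ) + 1 ≤ j := by
    simp only [mem_range, not_lt] at hj
    exact_mod_cast hj
  exact mul_nonneg (h0 j) (by linarith)

theorem cheb_lower {p : ℕ → ℝ} (hp : Antitone p) (h0 : ∀ j, 0 ≤ p j) (h1 : p 0 ≤ 1) (a : ℝ)
    {M m : ℕ} (hm : m < M) (ha : (m : ℝ) ≤ a) :
    (1 - p m) * (a - m) ^ 2 ≤ a ^ 2 + ∑ j ∈ range M, p j * (2 * j + 1 - 2 * a) := by
  have hm0 : (0 : ℝ) ≤ m := Nat.cast_nonneg m
  have key : ∀ j : ℕ, (1 - p (min j m)) * (a - m) ^ 2 + p j * (j + 1 - a) ^ 2 ≤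
      a ^ 2 + ∑ j ∈ range (j + 1), p j * (2 * j + 1 - 2 * a) := by
    intro j
    induction j with
    | zero =>
      simp only [Nat.cast_zero, zero_add, range_one, sum_singleton, mul_zero, zero_le,
        min_eq_left]
      have : (a - m) ^ 2 ≤ a ^ 2 := pow_le_pow_left₀ (by linarith) (by linarith) 2
      nlinarith [mul_le_mul_of_nonneg_left this (sub_nonneg.2 h1)]
    | succ j ih =>
      rw [Finset.sum_range_succ]
      have h2 := hp (Nat.le_succ j)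
      push_cast
      rcases le_or_gt (j + 1) m with h | h
      · rw [min_eq_left h]
        rw [min_eq_left (by omega)] at ih
        have h3 : (j : ℝ) + 1 ≤ m := by exact_mod_cast h
        have : (a - m) ^ 2 ≤ (a - (j + 1)) ^ 2 := pow_le_pow_left₀ (by linarith) (by linarith) 2
        nlinarith [mul_le_mul_of_nonneg_left this (sub_nonneg.2 h2)]
      · rw [min_eq_right h.le]
        rw [min_eq_right (by omega)] at ih
        nlinarith [mul_nonneg (sub_nonneg.2 h2) (sq_nonneg ((j : ℝ) + 1 - a))]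
  obtain ⟨j, rfl⟩ : ∃ j, M = j + 1 := ⟨M - 1, by omega⟩
  have := key j
  rw [min_eq_right (by omega)] at this
  nlinarith [mul_nonneg (h0 j) (sq_nonneg ((j : ℝ) + 1 - a))]

theorem seq_converges (ρ φ e : ℕ → ℝ) (B : ℝ) (hB : ∀ n, 1 ≤ n → ρ n ≤ B) (hφ0 : ∀ n, 0 ≤ φ n)
    (hφ : Tendsto φ atTop (𝓝 0)) (he : Tendsto e atTop (𝓝 0))
    (hsplit : ∀ n₁ n₂, 1 ≤ n₁ → n₁ ≤ n₂ → n₂ ≤ 2 * n₁ →
      min (ρ n₁ - φ n₁) (ρ n₂ - φ n₂) ≤ ρ (n₁ + n₂) - φ (n₁ + n₂))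
    (hsucc : ∀ n, 1 ≤ n → ρ n - e n ≤ ρ (n + 1)) : ∃ α, Tendsto ρ atTop (𝓝 α) := by
  set Z : Set ℝ := (fun n => ρ n - φ n) '' {n | 1 ≤ n} with hZ
  have hZb : BddAbove Z := ⟨B, by
    rintro _ ⟨n, hn, rfl⟩
    exact (sub_le_self _ (hφ0 n)).trans (hB n hn)⟩
  have hZn : Z.Nonempty := ⟨_, 1, le_refl 1, rfl⟩
  have hmul : ∀ n₀, 1 ≤ n₀ → ∀ t, 1 ≤ t → ρ n₀ - φ n₀ ≤ ρ (t * n₀) - φ (t * n₀) := by
    intro n₀ hn₀ t
    induction t using Nat.strong_induction_on with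
    | _ t ih =>
      intro ht
      rcases eq_or_lt_of_le ht with rfl | ht
      · simp
      have e1 : t * n₀ = (t / 2) * n₀ + (t - t / 2) * n₀ := by
        rw [← add_mul]; congr 1; omega
      rw [e1]
      refine le_trans (le_min (ih _ (by omega) (by omega)) (ih _ (by omega) (by omega)))
        (hsplit _ _ (Nat.mul_pos (by omega) hn₀) (Nat.mul_le_mul_right _ (by omega)) ?_)
      rw [← mul_assoc]
      exact Nat.mul_le_mul_right _ (by omega)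
  refine ⟨sSup Z, tendsto_order.2 ⟨fun b hb => ?_, fun b hb => ?_⟩⟩
  · obtain ⟨_, ⟨n₀, hn₀, rfl⟩, hz⟩ := exists_lt_of_lt_csSup hZn hb
    simp only [Set.mem_ofPred_eq] at hn₀ hz
    have hn₀' : (0 : ℝ) < n₀ := by exact_mod_cast hn₀
    set ε := (ρ n₀ - φ n₀ - b) / (2 * n₀) with hε
    have hε0 : 0 < ε := div_pos (by linarith) (by positivity)
    obtain ⟨N, hN⟩ := eventually_atTop.1 ((tendsto_order.1 he).2 ε hε0)
    have hstep : ∀ s n : ℕ, N + 1 ≤ n → ρ n - s * ε ≤ ρ (n + s) := by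
      intro s n hn
      induction s with
      | zero => simp
      | succ s ih =>
        have h1 := hsucc (n + s) (by omega)
        have h2 := hN (n + s) (by omega)
        rw [← add_assoc]; push_cast; linarith
    filter_upwards [eventually_ge_atTop (N + 1 + n₀)] with n hn
    have e1 : n = (n / n₀) * n₀ + n % n₀ := (Nat.div_add_mod' n n₀).symm
    have h3 : n % n₀ < n₀ := Nat.mod_lt _ hn₀
    have h4 := hstep (n % n₀) ((n / n₀) * n₀) (by omega)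
    rw [← e1] at h4
    have h5 := hmul n₀ hn₀ (n / n₀) (Nat.div_pos (by omega) hn₀)
    have h6 := hφ0 (n / n₀ * n₀)
    have h7 : ((n % n₀ : ℕ) : ℝ) * ε ≤ n₀ * ε := by
      gcongr
    have h8 : n₀ * ε = (ρ n₀ - φ n₀ - b) / 2 := by rw [hε]; field_simp
    linarith
  · filter_upwards [eventually_ge_atTop 1, (tendsto_order.1 hφ).2 (b - sSup Z) (by linarith)]
      with n hn h
    have : ρ n - φ n ≤ sSup Z := le_csSup hZb ⟨n, hn, rfl⟩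
    linarith

/-- sixth root -/
noncomputable def r6 (n : ℕ) : ℝ := (n : ℝ) ^ ((6 : ℕ)⁻¹ : ℝ)

theorem r6_nonneg (n : ℕ) : 0 ≤ r6 n := Real.rpow_nonneg (Nat.cast_nonneg n) _

theorem r6_pow (n : ℕ) : r6 n ^ 6 = n := Real.rpow_inv_natCast_pow (Nat.cast_nonneg n) (by norm_num)

theorem r6_mono {n N : ℕ} (h : n ≤ N) : r6 n ≤ r6 N :=
  Real.rpow_le_rpow (Nat.cast_nonneg n) (by exact_mod_cast h) (by positivity)

theorem one_le_r6 {n : ℕ} (h : 1 ≤ n) : 1 ≤ r6 n :=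
  Real.one_le_rpow (by exact_mod_cast h) (by positivity)

theorem tendsto_r6 : Tendsto r6 atTop atTop :=
  (tendsto_rpow_atTop (by positivity)).comp tendsto_natCast_atTop_atTop

theorem r6_ratio {n N : ℕ} (h : 3 * n ≤ 2 * N) : 1.06 * r6 n ≤ r6 N := by
  refine le_of_pow_le_pow_left₀ (n := 6) (by norm_num) (r6_nonneg N) ?_
  rw [mul_pow, r6_pow, r6_pow]
  have : 3 * (n : ℝ) ≤ 2 * N := by exact_mod_cast h
  have h0 : (0 : ℝ) ≤ n := Nat.cast_nonneg n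
  nlinarith

theorem split_step (P : ℕ → ℕ → ℝ) (g τ : ℕ → ℝ) (K : ℕ) (η : ℝ) (hη0 : 0 < η) (hη1 : η ≤ 1 / 10)
    (h0 : ∀ n m, 0 ≤ P n m) (hg0 : ∀ n, 0 ≤ g n) (hgK : ∀ n, 1 ≤ n → g n ≤ K * n)
    (hτ0 : ∀ n, 1 ≤ n → 0 < τ n) (hKτ : ∀ n : ℕ, 1 ≤ n → (K : ℝ) * n ≤ η * τ n ^ 2)
    (hI : ∀ n₁ n₂ : ℕ, 1 ≤ n₁ → 1 ≤ n₂ → ∀ t : ℝ, 0 ≤ t → ∀ m a b : ℕ,
      t ≤ a + 1 - (n₁ : ℝ) / (n₁ + n₂) * m → t ≤ b + 1 - (n₂ : ℝ) / (n₁ + n₂) * m →
      t ^ 2 * (P n₁ a * P n₂ b - P (n₁ + n₂) m) ≤ m)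
    (c1 : ∀ n, 1 ≤ n → ∀ m, m < K * n → η < P n m → (m : ℝ) + 1 < g n + τ n)
    (c2 : ∀ n N, 1 ≤ n → n ≤ N → ∀ m : ℕ, m + τ N ≤ g n → 1 - η ≤ P n m)
    (n₁ n₂ : ℕ) (hn₁ : 1 ≤ n₁) (hn₂ : 1 ≤ n₂) (hb₁ : n₁ + n₂ ≤ 3 * n₁) (hb₂ : n₁ + n₂ ≤ 3 * n₂)
    (c : ℝ) (hc₁ : c * n₁ ≤ g n₁) (hc₂ : c * n₂ ≤ g n₂) :
    c * (n₁ + n₂) - 11 * τ (n₁ + n₂) ≤ g (n₁ + n₂) := by
  have hn : 1 ≤ n₁ + n₂ := by omega
  have ht := hτ0 _ hn
  have hKt := hKτ _ hn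
  have c1' := c1 _ hn
  have c2' := fun n' hn' => c2 n' (n₁ + n₂) hn'
  generalize τ (n₁ + n₂) = t at *
  have hp₁ : (0 : ℝ) < n₁ := by exact_mod_cast hn₁
  have hp₂ : (0 : ℝ) < n₂ := by exact_mod_cast hn₂
  have hb₁' : (n₁ : ℝ) + n₂ ≤ 3 * n₁ := by exact_mod_cast hb₁
  have hb₂' : (n₁ : ℝ) + n₂ ≤ 3 * n₂ := by exact_mod_cast hb₂
  rcases le_or_gt (c * (n₁ + n₂)) (10 * t) with h | h
  · linarith [hg0 (n₁ + n₂)]
  have hc0 : 0 < c := by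
    by_contra hc
    have : c * (n₁ + n₂) ≤ 0 := mul_nonpos_of_nonpos_of_nonneg (not_lt.1 hc) (by positivity)
    linarith
  have hcK : c ≤ K := le_of_mul_le_mul_right (hc₁.trans (hgK n₁ hn₁)) hp₁
  obtain ⟨m, hm1, hm2⟩ : ∃ m : ℕ, (m : ℝ) ≤ c * (n₁ + n₂) - 10 * t ∧
      c * (n₁ + n₂) - 10 * t < m + 1 :=
    ⟨⌊c * (n₁ + n₂) - 10 * t⌋₊, Nat.floor_le (by linarith), Nat.lt_floor_add_one _⟩
  have hmK : (m : ℝ) < K * (n₁ + n₂) := by
    have : c * (n₁ + n₂) ≤ K * (n₁ + n₂) := mul_le_mul_of_nonneg_right hcK (by positivity)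
    linarith
  have key : ∀ n' : ℕ, 1 ≤ n' → n' ≤ n₁ + n₂ → (n₁ : ℝ) + n₂ ≤ 3 * n' → c * n' ≤ g n' →
      ∃ a : ℕ, 1 - η ≤ P n' a ∧ t ≤ a + 1 - (n' : ℝ) / (n₁ + n₂) * m := by
    intro n' hn' hn'' hb hc
    have hp : (0 : ℝ) < n' := by exact_mod_cast hn'
    have e0 := mul_le_mul_of_nonneg_left hb hc0.le
    have e1 : 0 ≤ g n' - t := by linarith
    refine ⟨⌊g n' - t⌋₊, c2' n' hn' hn'' _ (by linarith [Nat.floor_le e1]), ?_⟩
    have e2 := Nat.lt_floor_add_one (g n' - t)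
    have e3 : (n' : ℝ) / (n₁ + n₂) * m ≤ c * n' - 10 * t / 3 := by
      rw [div_mul_eq_mul_div, div_le_iff₀ (by positivity)]
      nlinarith [mul_le_mul_of_nonneg_left hm1 hp.le, mul_le_mul_of_nonneg_left hb ht.le]
    linarith
  obtain ⟨a, ha1, ha2⟩ := key n₁ hn₁ (by omega) hb₁' hc₁
  obtain ⟨b, hb1, hb2⟩ := key n₂ hn₂ (by omega) hb₂' hc₂
  have e4 := hI n₁ n₂ hn₁ hn₂ t ht.le m _ _ ha2 hb2
  push_cast at hKt
  have e7 : (1 - η) * (1 - η) ≤ P n₁ a * P n₂ b :=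
    mul_le_mul ha1 hb1 (by linarith) (h0 _ _)
  have e8 : P n₁ a * P n₂ b - P (n₁ + n₂) m ≤ η := by
    refine le_of_mul_le_mul_left (a := t ^ 2) ?_ (pow_pos ht 2)
    linarith
  have e9 := c1' m (by exact_mod_cast hmK) (by nlinarith)
  linarith

theorem ratio_converges (g : ℕ → ℝ) (K : ℕ) (A : ℝ) (hA1 : 1 ≤ A)
    (hgK : ∀ n, 1 ≤ n → g n ≤ K * n)
    (split : ∀ n₁ n₂ : ℕ, 1 ≤ n₁ → 1 ≤ n₂ → n₁ + n₂ ≤ 3 * n₁ → n₁ + n₂ ≤ 3 * n₂ → ∀ c : ℝ,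
      c * n₁ ≤ g n₁ → c * n₂ ≤ g n₂ →
      c * (n₁ + n₂) - 11 * (A * r6 (n₁ + n₂) ^ 5) ≤ g (n₁ + n₂))
    (succ : ∀ n, 1 ≤ n → g n - 2 * (A * r6 (n + 1) ^ 5) ≤ g (n + 1)) :
    ∃ α, Tendsto (fun n => g n / n) atTop (𝓝 α) := by
  have hinv : ∀ D : ℝ, Tendsto (fun n => D / r6 n) atTop (𝓝 0) :=
    fun D => tendsto_r6.const_div_atTop D
  have hτn : ∀ n : ℕ, 1 ≤ n → A * r6 n ^ 5 / n = A / r6 n := by
    intro n hn
    have := one_le_r6 hn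
    rw [← r6_pow n]; field_simp
  refine seq_converges (fun n => g n / n) (fun n => 200 * A / r6 n)
    (fun n => K / ((n + 1 : ℕ) : ℝ) + 2 * A / r6 (n + 1)) K (fun n hn => ?_)
    (fun n => div_nonneg (by positivity) (r6_nonneg n)) (hinv _) ?_ ?_ ?_
  · have hp : (0 : ℝ) < n := by exact_mod_cast hn
    rw [div_le_iff₀ hp]; exact hgK n hn
  · have e1 := (tendsto_const_div_atTop_nhds_zero_nat (K : ℝ)).comp (tendsto_add_atTop_nat 1)
    have e2 := (hinv (2 * A)).comp (tendsto_add_atTop_nat 1)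
    simpa using e1.add e2
  · intro n₁ n₂ hn₁ h12 h21
    have hn₂ : 1 ≤ n₂ := by omega
    have hp₁ : (0 : ℝ) < n₁ := by exact_mod_cast hn₁
    have hp₂ : (0 : ℝ) < n₂ := by exact_mod_cast hn₂
    have e1 := split n₁ n₂ hn₁ hn₂ (by omega) (by omega) (min (g n₁ / n₁) (g n₂ / n₂))
      (by rw [← le_div_iff₀ hp₁]; exact min_le_left _ _)
      (by rw [← le_div_iff₀ hp₂]; exact min_le_right _ _)
    have e2 := hτn (n₁ + n₂) (by omega)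
    have hr := one_le_r6 (show 1 ≤ n₁ + n₂ by omega)
    have e3 : min (g n₁ / n₁) (g n₂ / n₂) - 11 * (A / r6 (n₁ + n₂)) ≤
        g (n₁ + n₂) / ((n₁ + n₂ : ℕ) : ℝ) := by
      rw [← e2]; push_cast
      rw [le_div_iff₀ (by positivity), sub_mul, mul_assoc, div_mul_cancel₀ _ (by positivity)]
      exact e1
    have e4 : ∀ n' : ℕ, 1 ≤ n' → 3 * n' ≤ 2 * (n₁ + n₂) →
        212 * (A / r6 (n₁ + n₂)) ≤ 200 * A / r6 n' := by
      intro n' hn' h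
      have e5 := r6_ratio h
      have e6 := one_le_r6 hn'
      rw [← mul_div_assoc, div_le_div_iff₀ (by positivity) (by positivity)]
      nlinarith
    have e5 := e4 n₁ hn₁ (by omega)
    have e6 := e4 n₂ hn₂ (by omega)
    have e7 : 0 ≤ A / r6 (n₁ + n₂) := by positivity
    rw [mul_div_assoc 200 A (r6 (n₁ + n₂))]
    rcases le_total (g n₁ / n₁) (g n₂ / n₂) with h | h
    · rw [min_eq_left h] at e3
      exact (min_le_left _ _).trans (by linarith)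
    · rw [min_eq_right h] at e3
      exact (min_le_right _ _).trans (by linarith)
  · intro n hn
    have hp : (0 : ℝ) < n := by exact_mod_cast hn
    have e1 := succ n hn
    have e2 := hτn (n + 1) (by omega)
    have e3 : g n / n ≤ K := by rw [div_le_iff₀ hp]; exact hgK n hn
    rw [mul_div_assoc, ← e2]
    push_cast
    rw [le_div_iff₀ (by positivity)]
    have e4 : (g n / n - (K / (n + 1) + 2 * (A * r6 (n + 1) ^ 5 / (n + 1)))) * (n + 1) =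
        g n + g n / n - K - 2 * (A * r6 (n + 1) ^ 5) := by field_simp; ring
    rw [e4]; linarith

theorem small_of_sq {C ε : ℝ} (hε : 0 < ε) {n : ℕ} (hn : 1 ≤ n) {y : ℝ}
    (h : y * (ε * n) ^ 2 ≤ C * r6 n ^ 10) : y ≤ |C| / ε ^ 2 / r6 n := by
  have hr := one_le_r6 hn
  rw [← r6_pow n] at h
  rw [div_div, le_div_iff₀ (by positivity)]
  have e1 : C * r6 n ^ 10 ≤ |C| * r6 n ^ 11 :=
    mul_le_mul (le_abs_self C) (pow_le_pow_right₀ hr (by norm_num)) (by positivity)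
      (abs_nonneg C)
  refine le_of_mul_le_mul_right (a := r6 n ^ 11) ?_ (by positivity)
  calc y * (ε ^ 2 * r6 n) * r6 n ^ 11 = y * (ε * r6 n ^ 6) ^ 2 := by ring
    _ ≤ _ := h.trans e1

theorem limit_exists (P : ℕ → ℕ → ℝ) (g : ℕ → ℝ) (K : ℕ) (hK : 1 ≤ K) (C δ : ℝ) (hδ : 0 < δ)
    (h0 : ∀ n m, 0 ≤ P n m) (hg0 : ∀ n, 0 ≤ g n) (hgK : ∀ n, 1 ≤ n → g n ≤ K * n)
    (chU : ∀ n, 1 ≤ n → ∀ m, m < K * n → ∀ t : ℝ, 0 ≤ t → g n + t ≤ m + 1 →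
      P n m * t ^ 2 ≤ C * r6 n ^ 10)
    (chL : ∀ n, 1 ≤ n → ∀ m : ℕ, ∀ t : ℝ, 0 < t → m + t ≤ g n →
      (1 - P n m) * t ^ 2 ≤ C * r6 n ^ 10)
    (hI : ∀ n₁ n₂ : ℕ, 1 ≤ n₁ → 1 ≤ n₂ → ∀ t : ℝ, 0 ≤ t → ∀ m a b : ℕ,
      t ≤ a + 1 - (n₁ : ℝ) / (n₁ + n₂) * m → t ≤ b + 1 - (n₂ : ℝ) / (n₁ + n₂) * m →
      t ^ 2 * (P n₁ a * P n₂ b - P (n₁ + n₂) m) ≤ m)
    (hS : ∀ n, 1 ≤ n → ∀ m, m ≤ K * n → δ * P n m ≤ P (n + 1) m)
    (hL : ∀ n, 1 ≤ n → ∀ m, 27 * m ≤ n → 1 / 2 ≤ P n m) :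
    ∃ α : ℝ, 0 < α ∧ Tendsto (fun n => g n / n) atTop (𝓝 α) := by
  obtain ⟨η, hη0, hη1, hη2⟩ : ∃ η : ℝ, 0 < η ∧ η ≤ 1 / 10 ∧ η ≤ δ / 4 :=
    ⟨min (1 / 10) (δ / 4), lt_min (by norm_num) (by positivity), min_le_left _ _, min_le_right _ _⟩
  obtain ⟨A, hA1, hAC, hAK⟩ : ∃ A : ℝ, 1 ≤ A ∧ C ≤ η * A ^ 2 ∧ K ≤ η * A ^ 2 := by
    refine ⟨1 + (|C| + K) / η, le_add_of_nonneg_right (by positivity), ?_, ?_⟩
    all_goals
      have e1 : η * ((|C| + K) / η) = |C| + K := by field_simp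
      have e2 : (0 : ℝ) ≤ (|C| + K) / η := by positivity
      have e3 : (0 : ℝ) ≤ K := Nat.cast_nonneg K
      nlinarith [le_abs_self C, abs_nonneg C, mul_nonneg hη0.le (sq_nonneg ((|C| + K) / η))]
  have hτ0 : ∀ n, 1 ≤ n → 0 < A * r6 n ^ 5 := fun n hn => by
    have := one_le_r6 hn
    positivity
  have hVτ : ∀ n N, n ≤ N → C * r6 n ^ 10 ≤ η * (A * r6 N ^ 5) ^ 2 := by
    intro n N h
    have e1 : r6 n ^ 10 ≤ r6 N ^ 10 := pow_le_pow_left₀ (r6_nonneg n) (r6_mono h) 10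
    calc C * r6 n ^ 10 ≤ η * A ^ 2 * r6 n ^ 10 :=
          mul_le_mul_of_nonneg_right hAC (pow_nonneg (r6_nonneg n) _)
      _ ≤ η * A ^ 2 * r6 N ^ 10 := by gcongr
      _ = η * (A * r6 N ^ 5) ^ 2 := by ring
  have hKτ : ∀ n : ℕ, 1 ≤ n → (K : ℝ) * n ≤ η * (A * r6 n ^ 5) ^ 2 := by
    intro n hn
    have e6 : (n : ℝ) ≤ r6 n ^ 10 := by
      rw [← r6_pow]; exact pow_le_pow_right₀ (one_le_r6 hn) (by norm_num)
    calc (K : ℝ) * n ≤ η * A ^ 2 * r6 n ^ 10 := by gcongr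
      _ = _ := by ring
  have c1 : ∀ n, 1 ≤ n → ∀ m, m < K * n → η < P n m → (m : ℝ) + 1 < g n + A * r6 n ^ 5 := by
    intro n hn m hm h
    by_contra hc
    have e1 := (chU n hn m hm _ (hτ0 n hn).le (not_lt.1 hc)).trans (hVτ n n le_rfl)
    exact absurd (le_of_mul_le_mul_right e1 (pow_pos (hτ0 n hn) 2)) (not_le.2 h)
  have c2 : ∀ n N, 1 ≤ n → n ≤ N → ∀ m : ℕ, m + A * r6 N ^ 5 ≤ g n → 1 - η ≤ P n m := by
    intro n N hn hN m h
    have e1 := (chL n hn m _ (hτ0 N (hn.trans hN)) h).trans (hVτ n N hN)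
    have := le_of_mul_le_mul_right e1 (pow_pos (hτ0 N (hn.trans hN)) 2)
    linarith
  have split := split_step P g (fun n => A * r6 n ^ 5) K η hη0 hη1 h0 hg0 hgK hτ0 hKτ hI c1 c2
  have succ : ∀ n, 1 ≤ n → g n - 2 * (A * r6 (n + 1) ^ 5) ≤ g (n + 1) := by
    intro n hn
    have ht := hτ0 (n + 1) (by omega)
    have c1' := c1 (n + 1) (by omega)
    have c2' := c2 n (n + 1) hn (by omega)
    generalize A * r6 (n + 1) ^ 5 = t at *
    rcases le_or_gt (g n) t with h | h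
    · linarith [hg0 (n + 1)]
    obtain ⟨m, hm1, hm2⟩ : ∃ m : ℕ, (m : ℝ) ≤ g n - t ∧ g n - t < m + 1 :=
      ⟨⌊g n - t⌋₊, Nat.floor_le (by linarith), Nat.lt_floor_add_one _⟩
    have hmK : m ≤ K * n := by
      have : (m : ℝ) ≤ K * n := by linarith [hgK n hn]
      exact_mod_cast this
    have e1 := c2' m (by linarith)
    have e2 := hS n hn m hmK
    have e4 : δ * (1 / 2) ≤ δ * P n m := mul_le_mul_of_nonneg_left (by linarith) hδ.le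
    have e3 := c1' m (by rw [mul_add]; omega) (by linarith)
    linarith
  obtain ⟨α, hα⟩ := ratio_converges g K A hA1 hgK split succ
  refine ⟨α, ?_, hα⟩
  have e1 : Tendsto (fun n => 1 / 27 - A / r6 n) atTop (𝓝 (1 / 27 - 0)) :=
    tendsto_const_nhds.sub (tendsto_r6.const_div_atTop A)
  have e2 : (1 / 27 - 0 : ℝ) ≤ α := by
    refine le_of_tendsto_of_tendsto e1 hα ?_
    filter_upwards [eventually_ge_atTop 1] with n hn
    have hp : (0 : ℝ) < n := by exact_mod_cast hn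
    have e5 : n / 27 < K * n :=
      (Nat.div_lt_self hn (show 1 < 27 by norm_num)).trans_le (Nat.le_mul_of_pos_left n hK)
    have e3 := c1 n hn (n / 27) e5 (by linarith [hL n hn (n / 27) (by omega)])
    have e4 : (n : ℝ) < 27 * (((n / 27 : ℕ) : ℝ) + 1) := by
      exact_mod_cast (by omega : n < 27 * (n / 27 + 1))
    have hτn : A * r6 n ^ 5 / n = A / r6 n := by
      have := one_le_r6 hn
      rw [← r6_pow n]; field_simp
    rw [← hτn, le_div_iff₀ hp, sub_mul, div_mul_cancel₀ _ hp.ne']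
    linarith
  linarith

theorem abstract_threshold (P : ℕ → ℕ → ℝ) (K : ℕ) (hK : 1 ≤ K) (C δ : ℝ) (hδ : 0 < δ)
    (hanti : ∀ n, 1 ≤ n → Antitone (P n)) (h0 : ∀ n m, 0 ≤ P n m)
    (h1 : ∀ n, 1 ≤ n → ∀ m, P n m ≤ 1)
    (hV : ∀ n, 1 ≤ n → (∑ m ∈ range (K * n), (2 * (m : ℝ) + 1) * P n m) -
      (∑ m ∈ range (K * n), P n m) ^ 2 ≤ C * r6 n ^ 10)
    (hI : ∀ n₁ n₂ : ℕ, 1 ≤ n₁ → 1 ≤ n₂ → ∀ t : ℝ, 0 ≤ t → ∀ m a b : ℕ,
      t ≤ a + 1 - (n₁ : ℝ) / (n₁ + n₂) * m → t ≤ b + 1 - (n₂ : ℝ) / (n₁ + n₂) * m →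
      t ^ 2 * (P n₁ a * P n₂ b - P (n₁ + n₂) m) ≤ m)
    (hS : ∀ n, 1 ≤ n → ∀ m, m ≤ K * n → δ * P n m ≤ P (n + 1) m)
    (hL : ∀ n, 1 ≤ n → ∀ m, 27 * m ≤ n → 1 / 2 ≤ P n m)
    (hU : Tendsto (fun n => P n (K * n)) atTop (𝓝 0)) :
    ∃ α : ℝ, 0 < α ∧
      (∀ c : ℝ, 0 ≤ c → c < α → Tendsto (fun n : ℕ => P n ⌊c * n⌋₊) atTop (𝓝 1)) ∧
      (∀ c : ℝ, α < c → Tendsto (fun n : ℕ => P n ⌊c * n⌋₊) atTop (𝓝 0)) := by
  obtain ⟨g, hg⟩ : ∃ g : ℕ → ℝ, ∀ n, g n = ∑ m ∈ range (K * n), P n m := ⟨_, fun _ => rfl⟩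
  have hg0 : ∀ n, 0 ≤ g n := fun n => by rw [hg]; exact Finset.sum_nonneg fun m _ => h0 n m
  have hgK : ∀ n, 1 ≤ n → g n ≤ K * n := by
    intro n hn
    rw [hg]
    calc _ ≤ ∑ _m ∈ range (K * n), (1 : ℝ) := Finset.sum_le_sum fun m _ => h1 n hn m
      _ = K * n := by simp
  have hV' : ∀ n, 1 ≤ n → g n ^ 2 + ∑ j ∈ range (K * n), P n j * (2 * j + 1 - 2 * g n) ≤
      C * r6 n ^ 10 := by
    intro n hn
    refine le_trans (le_of_eq ?_) (hV n hn)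
    have : ∀ j : ℕ, P n j * (2 * j + 1 - 2 * g n) = (2 * (j : ℝ) + 1) * P n j - 2 * g n * P n j :=
      fun j => by ring
    simp only [this, Finset.sum_sub_distrib, ← Finset.mul_sum, ← hg]
    ring
  have chU : ∀ n, 1 ≤ n → ∀ m, m < K * n → ∀ t : ℝ, 0 ≤ t → g n + t ≤ m + 1 →
      P n m * t ^ 2 ≤ C * r6 n ^ 10 := by
    intro n hn m hm t ht h
    refine le_trans ?_ ((cheb_upper (hanti n hn) (h0 n) (h1 n hn 0) (g n) hm
      (by linarith)).trans (hV' n hn))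
    exact mul_le_mul_of_nonneg_left (pow_le_pow_left₀ ht (by linarith) 2) (h0 n m)
  have chL : ∀ n, 1 ≤ n → ∀ m : ℕ, ∀ t : ℝ, 0 < t → m + t ≤ g n →
      (1 - P n m) * t ^ 2 ≤ C * r6 n ^ 10 := by
    intro n hn m t ht h
    have hm : m < K * n := by
      have : (m : ℝ) < K * n := by linarith [hgK n hn]
      exact_mod_cast this
    refine le_trans ?_ ((cheb_lower (hanti n hn) (h0 n) (h1 n hn 0) (g n) hm
      (by linarith)).trans (hV' n hn))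
    exact mul_le_mul_of_nonneg_left (pow_le_pow_left₀ ht.le (by linarith) 2)
      (sub_nonneg.2 (h1 n hn m))
  obtain ⟨α, hα0, hα⟩ := limit_exists P g K hK C δ hδ h0 hg0 hgK chU chL hI hS hL
  have hinv : ∀ D : ℝ, Tendsto (fun n => D / r6 n) atTop (𝓝 0) :=
    fun D => tendsto_r6.const_div_atTop D
  refine ⟨α, hα0, fun c hc0 hc => ?_, fun c hc => ?_⟩
  · obtain ⟨ε, hε0, hε⟩ : ∃ ε : ℝ, 0 < ε ∧ c + ε < α := ⟨(α - c) / 2, by linarith, by linarith⟩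
    have e1 : Tendsto (fun n => 1 - |C| / ε ^ 2 / r6 n) atTop (𝓝 (1 - 0)) :=
      tendsto_const_nhds.sub (hinv _)
    rw [sub_zero] at e1
    refine tendsto_of_tendsto_of_tendsto_of_le_of_le' e1 tendsto_const_nhds ?_ ?_
    · filter_upwards [eventually_ge_atTop 1, (tendsto_order.1 hα).1 (c + ε) hε]
        with n hn h
      have hp : (0 : ℝ) < n := by exact_mod_cast hn
      rw [lt_div_iff₀ hp] at h
      have e2 : (⌊c * n⌋₊ : ℝ) ≤ c * n := Nat.floor_le (by positivity)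
      have e3 := small_of_sq hε0 hn (chL n hn ⌊c * n⌋₊ (ε * n) (by positivity) (by linarith))
      linarith
    · filter_upwards [eventually_ge_atTop 1] with n hn using h1 n hn _
  · obtain ⟨ε, hε0, hε⟩ : ∃ ε : ℝ, 0 < ε ∧ α < c - ε := ⟨(c - α) / 2, by linarith, by linarith⟩
    have e1 := (hinv (|C| / ε ^ 2)).add hU
    rw [add_zero] at e1
    refine tendsto_of_tendsto_of_tendsto_of_le_of_le' tendsto_const_nhds e1
      (Eventually.of_forall fun n => h0 _ _) ?_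
    filter_upwards [eventually_ge_atTop 1, (tendsto_order.1 hα).2 (c - ε) hε]
      with n hn h
    have hp : (0 : ℝ) < n := by exact_mod_cast hn
    rw [div_lt_iff₀ hp] at h
    have e2 : c * n < (⌊c * n⌋₊ : ℝ) + 1 := Nat.lt_floor_add_one _
    rcases lt_or_ge ⌊c * n⌋₊ (K * n) with hm | hm
    · have e3 := small_of_sq hε0 hn
        (chU n hn ⌊c * n⌋₊ hm (ε * n) (by positivity) (by linarith))
      linarith [h0 n (K * n)]
    · have e3 := hanti n hn hm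
      have e4 : 0 ≤ |C| / ε ^ 2 / r6 n := div_nonneg (by positivity) (r6_nonneg n)
      linarith

end Vale.Agent.P170
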