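import Vale.Agent.P170.Defs
import Vale.Agent.P170.Hall
import Vale.Agent.P170.Limit

/-!
The limiting threshold, first with independent literals and then with proper clauses.
-/

namespace Vale.Agent.P170

open Finset Filter Topology

theorem iid_threshold {k : ℕ} (hk : 3 ≤ k) :
    ∃ α : ℝ, 0 < α ∧
      (∀ c : ℝ, 0 ≤ c → c < α → Tendsto (fun n : ℕ => Pi' k n ⌊c * n⌋₊) atTop (𝓝 1)) ∧
      (∀ c : ℝ, α < c → Tendsto (fun n : ℕ => Pi' k n ⌊c * n⌋₊) atTop (𝓝 0)) := by
  refine abstract_threshold (Pi' k) (2 ^ k) Nat.one_le_two_pow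
    (2 * (2 ^ k) ^ 2 * k * (2 ^ k + 1) * (4 * 2 ^ k + 2 ^ k)) (Real.exp (-(2 ^ k)))
    (Real.exp_pos _) (fun n hn => ?_) (fun n m => surv_nonneg _ _ _) (fun n hn m => ?_)
    (fun n hn => ?_) (fun n₁ n₂ h₁ h₂ t ht m a b ha hb => ?_) (fun n hn m hm => ?_)
    (fun n hn m hm => Pi'_lower (by omega) hn hm) ?_
  · have : NeZero n := ⟨by omega⟩
    exact surv_antitone _ _
  · have : NeZero n := ⟨by omega⟩
    exact surv_le_one _ _ _
  · have : NeZero n := ⟨by omega⟩
    have hr := one_le_r6 hn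
    have hθ : 1 / (n : ℝ) ≤ 1 / r6 n ^ 2 := by
      rw [← r6_pow n]
      exact one_div_le_one_div_of_le (by positivity) (pow_le_pow_right₀ hr (by norm_num))
    have h := sat_variance (n := n) hk hθ (2 ^ k * n)
    rw [life_eq] at h
    refine h.trans (le_of_eq ?_)
    push_cast
    rw [← r6_pow n]
    field_simp
  · have : NeZero n₁ := ⟨by omega⟩
    have : NeZero n₂ := ⟨by omega⟩
    exact Pi'_split ht m a b ha hb
  · have : NeZero n := ⟨by omega⟩
    refine le_trans ?_ (Pi'_avoid (k := k) (n₁ := n) (n₂ := 1) m)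
    refine mul_le_mul_of_nonneg_right ?_ (surv_nonneg _ _ _)
    have hp : (0 : ℝ) < n := by exact_mod_cast hn
    have h1 : Real.exp (-(1 / n)) ≤ (n : ℝ) / (n + (1 : ℕ)) := by
      have := Real.add_one_le_exp (1 / n : ℝ)
      rw [Real.exp_neg, inv_le_comm₀ (Real.exp_pos _) (by positivity), inv_div]
      refine le_trans (le_of_eq ?_) this
      push_cast; field_simp; ring
    refine le_trans ?_ (pow_le_pow_left₀ (Real.exp_pos _).le h1 m)
    rw [← Real.exp_nat_mul]
    refine Real.exp_le_exp.2 ?_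
    have h2 : (m : ℝ) ≤ 2 ^ k * n := by exact_mod_cast hm
    rw [mul_neg, neg_le_neg_iff, mul_one_div, div_le_iff₀ hp]
    exact h2
  · have h1 : (1 - (1 / 2 : ℝ) ^ k) ^ (2 ^ k) ≤ Real.exp (-1) := by
      have e1 : (1 / 2 : ℝ) ^ k ≤ 1 := pow_le_one₀ (by norm_num) (by norm_num)
      have e2 : 1 - (1 / 2 : ℝ) ^ k ≤ Real.exp (-(1 / 2 : ℝ) ^ k) := by
        linarith [Real.add_one_le_exp (-(1 / 2 : ℝ) ^ k)]
      refine (pow_le_pow_left₀ (by linarith) e2 _).trans (le_of_eq ?_)
      rw [← Real.exp_nat_mul]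
      congr 1
      push_cast
      rw [mul_neg, ← mul_pow]; norm_num
    have h2 : 2 * Real.exp (-1) < 1 := by
      rw [Real.exp_neg, ← div_eq_mul_inv, div_lt_one (Real.exp_pos _)]
      linarith [Real.exp_one_gt_d9]
    refine squeeze_zero' (Eventually.of_forall fun n => surv_nonneg _ _ _) ?_
      (tendsto_pow_atTop_nhds_zero_of_lt_one (by positivity) h2)
    filter_upwards [eventually_ge_atTop 1] with n hn
    have : NeZero n := ⟨by omega⟩
    refine (Pi'_first_moment k n _).trans ?_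
    rw [pow_mul, mul_pow]
    have e1 : (1 / 2 : ℝ) ^ k ≤ 1 := pow_le_one₀ (by norm_num) (by norm_num)
    have e3 : 0 ≤ (1 - (1 / 2 : ℝ) ^ k) ^ (2 ^ k) := pow_nonneg (by linarith) _
    gcongr

/-- the points satisfying a clause given as a set of literals -/
def clP {n : ℕ} (C : Finset (Fin n × Bool)) : Set (Fin n → Bool) := {σ | ∃ l ∈ C, σ l.1 = l.2}

open Classical in
theorem fiber_card {k n : ℕ} {D : Finset (Fin n × Bool)} (hD : IsProperClause k D) :
    ((univ.filter fun c : Fin k → Fin n × Bool => Function.Injective (Prod.fst ∘ c)).filter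
      fun c => univ.image c = D).card = k.factorial := by
  have h1 : Fintype.card (Fin k ↪ D) = k.factorial := by
    rw [Fintype.card_embedding_eq, Fintype.card_coe, hD.1, Fintype.card_fin,
      Nat.descFactorial_self]
  rw [← h1, ← card_univ]
  symm
  refine Finset.card_bij (fun e _ => fun i => (e i).1) (fun e _ => ?_) (fun e _ e' _ h => ?_)
    (fun c hc => ?_)
  · have hinj : Function.Injective fun i => (e i).1 :=
      fun i j h => e.injective (Subtype.ext h)
    simp only [mem_filter, mem_univ, true_and]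
    refine ⟨fun i j h => hinj (hD.2 (e i).2 (e j).2 h), Finset.eq_of_subset_of_card_le ?_ ?_⟩
    · intro l hl
      obtain ⟨i, -, rfl⟩ := mem_image.1 hl
      exact (e i).2
    · rw [Finset.card_image_of_injective _ hinj, hD.1]; simp
  · ext1 i
    exact Subtype.ext (congrFun h i)
  · simp only [mem_filter, mem_univ, true_and] at hc
    refine ⟨⟨fun i => ⟨c i, hc.2 ▸ mem_image_of_mem _ (mem_univ i)⟩, fun i j h => ?_⟩,
      mem_univ _, rfl⟩
    exact hc.1 (congrArg Prod.fst (congrArg Subtype.val h))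

open Classical in
theorem sum_inj_eq (k n : ℕ) (G : Finset (Fin n × Bool) → ℝ) :
    ∑ c ∈ univ.filter (fun c : Fin k → Fin n × Bool => Function.Injective (Prod.fst ∘ c)),
      G (univ.image c) = k.factorial * ∑ D : {C : Finset (Fin n × Bool) // IsProperClause k C},
        G D.1 := by
  rw [← Finset.sum_fiberwise_of_maps_to (t := univ.filter (IsProperClause k))
    (g := fun c => univ.image c)]
  · rw [Finset.mul_sum, Finset.sum_subtype (p := IsProperClause k) _ (by simp)]
    refine Finset.sum_congr rfl fun D _ => ?_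
    rw [Finset.sum_congr rfl (g := fun _ => G D.1) (fun c hc => by rw [(mem_filter.1 hc).2]),
      Finset.sum_const, fiber_card D.2, nsmul_eq_mul]
  · intro c hc
    simp only [mem_filter, mem_univ, true_and] at hc ⊢
    refine ⟨?_, ?_⟩
    · rw [Finset.card_image_of_injective _ (Function.Injective.of_comp hc)]; simp
    · intro l hl l' hl' h
      simp only [coe_image, coe_univ, Set.image_univ, Set.mem_range] at hl hl'
      obtain ⟨i, rfl⟩ := hl
      obtain ⟨j, rfl⟩ := hl'
      rw [hc h]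

open Classical in
theorem card_inj_ge (k n : ℕ) : (n + 1 - k) ^ k * 2 ^ k ≤
    (univ.filter (fun c : Fin k → Fin n × Bool => Function.Injective (Prod.fst ∘ c))).card := by
  have h1 : Fintype.card ((Fin k ↪ Fin n) × (Fin k → Bool)) = n.descFactorial k * 2 ^ k := by
    simp
  refine (Nat.mul_le_mul_right _ (Nat.pow_sub_le_descFactorial n k)).trans ?_
  rw [← h1, ← card_univ]
  refine Finset.card_le_card_of_injOn (fun p i => (p.1 i, p.2 i)) (fun p _ => ?_)
    (fun p _ p' _ h => ?_)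
  · simp only [coe_filter, mem_univ, true_and, Set.mem_ofPred_eq]
    exact p.1.injective
  · refine Prod.ext ?_ ?_
    · ext1 i; exact congrArg Prod.fst (congrFun h i)
    · funext i; exact congrArg Prod.snd (congrFun h i)

open Classical in
theorem card_proper_ge (k n : ℕ) : (((n + 1 - k : ℕ) : ℝ)) ^ k * 2 ^ k ≤
    k.factorial * Fintype.card {C : Finset (Fin n × Bool) // IsProperClause k C} := by
  have h := sum_inj_eq k n (fun _ => 1)
  simp only [sum_const, nsmul_eq_mul, mul_one, card_univ] at h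
  rw [← h]
  exact_mod_cast card_inj_ge k n

open Classical in
theorem proper_dom {k n : ℕ} (hn : 0 < n) (hkn : k ≤ n) {f : Set (Fin n → Bool) → ℝ} (hf : 0 ≤ f) :
    ((1 - (k : ℝ) / n) ^ k) •
      T (fun D : {C : Finset (Fin n × Bool) // IsProperClause k C} => clP D.1) f ≤
      T (cl k (lit n)) f := by
  intro S
  have hp : (0 : ℝ) < n := by exact_mod_cast hn
  have hkn' : (k : ℝ) ≤ n := by exact_mod_cast hkn
  have h1 := sum_inj_eq k n (fun D => f (S ∩ clP D))
  have h2 : ∀ c : Fin k → Fin n × Bool, clP (univ.image c) = cl k (lit n) c := by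
    intro c; ext σ; simp [clP, cl, lit]
  simp only [h2] at h1
  have h3 : ∑ c ∈ univ.filter (fun c : Fin k → Fin n × Bool => Function.Injective (Prod.fst ∘ c)),
      f (S ∩ cl k (lit n) c) ≤ ∑ c, f (S ∩ cl k (lit n) c) :=
    Finset.sum_le_sum_of_subset_of_nonneg (filter_subset _ _) fun c _ _ => hf _
  have h4 := card_proper_ge k n
  have h5 : (n : ℝ) - k ≤ ((n + 1 - k : ℕ) : ℝ) := by
    rw [Nat.cast_sub (by omega)]; push_cast; linarith
  have h6 : ((n : ℝ) - k) ^ k * 2 ^ k ≤
      k.factorial * Fintype.card {C : Finset (Fin n × Bool) // IsProperClause k C} :=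
    le_trans (mul_le_mul_of_nonneg_right (pow_le_pow_left₀ (by linarith) h5 k) (by positivity)) h4
  have h7 : (0 : ℝ) < Fintype.card {C : Finset (Fin n × Bool) // IsProperClause k C} := by
    have : (0 : ℝ) < ((n + 1 - k : ℕ) : ℝ) := by exact_mod_cast (by omega : 0 < n + 1 - k)
    have : (0 : ℝ) < ((n + 1 - k : ℕ) : ℝ) ^ k * 2 ^ k := by positivity
    exact pos_of_mul_pos_right (this.trans_le h4) (Nat.cast_nonneg _)
  have h8 : 0 ≤ ∑ D : {C : Finset (Fin n × Bool) // IsProperClause k C}, f (S ∩ clP D.1) :=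
    Finset.sum_nonneg fun D _ => hf _
  rw [Pi.smul_apply, smul_eq_mul, T_apply, T_apply, av, av]
  have h9 : (Fintype.card (Fin k → Fin n × Bool) : ℝ) = n ^ k * 2 ^ k := by
    simp [mul_pow]
  have h10 : (1 - (k : ℝ) / n) = (n - k) / n := by field_simp
  rw [h9, h10, div_pow, div_mul_div_comm, div_le_div_iff₀ (by positivity) (by positivity)]
  calc _ = ((n - k) ^ k * 2 ^ k) * (∑ D : {C : Finset (Fin n × Bool) // IsProperClause k C},
        f (S ∩ clP D.1)) * n ^ k := by ring
    _ ≤ (k.factorial * Fintype.card {C : Finset (Fin n × Bool) // IsProperClause k C}) *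
        (∑ D : {C : Finset (Fin n × Bool) // IsProperClause k C}, f (S ∩ clP D.1)) * n ^ k := by
        gcongr
    _ = (k.factorial * (∑ D : {C : Finset (Fin n × Bool) // IsProperClause k C},
        f (S ∩ clP D.1))) * (n ^ k * Fintype.card {C : Finset (Fin n × Bool) //
          IsProperClause k C}) := by ring
    _ ≤ _ := by rw [← h1]; gcongr

theorem pow_dom {Ω : Type*} {L N : Module.End ℝ (Set Ω → ℝ)} (hL : IsPos L) (hN : IsPos N)
    {q : ℝ} (hq : 0 ≤ q) (h : ∀ f, 0 ≤ f → q • N f ≤ L f) {f : Set Ω → ℝ} (hf : 0 ≤ f) (m : ℕ) :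
    q ^ m • (N ^ m) f ≤ (L ^ m) f := by
  induction m with
  | zero => simp
  | succ m ih =>
    calc q ^ (m + 1) • (N ^ (m + 1)) f = q ^ m • (q • N ((N ^ m) f)) := by
          rw [pow_succ' N, Module.End.mul_apply, smul_smul, pow_succ]
      _ ≤ q ^ m • L ((N ^ m) f) :=
          smul_le_smul_of_nonneg_left (h _ ((hN.pow m).nonneg hf)) (pow_nonneg hq m)
      _ = L (q ^ m • (N ^ m) f) := by rw [map_smul]
      _ ≤ L ((L ^ m) f) := hL _ _ ih
      _ = (L ^ (m + 1)) f := by rw [pow_succ' L, Module.End.mul_apply]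

open Classical in
theorem satProb_eq (k n m : ℕ) : satProb k n m =
    surv (fun D : {C : Finset (Fin n × Bool) // IsProperClause k C} => clP D.1) m Set.univ := by
  have hinj : Function.Injective
      (fun (ω : Fin m → {C : Finset (Fin n × Bool) // IsProperClause k C}) i => (ω i).1) :=
    fun ω ω' h => funext fun i => Subtype.ext (congrFun h i)
  rw [surv, T_pow_eq_av, satProb, av]
  congr 1
  · have : {F : Fin m → Finset (Fin n × Bool) | (∀ i, IsProperClause k (F i)) ∧ Satisfiable F} =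
        (fun (ω : Fin m → {C : Finset (Fin n × Bool) // IsProperClause k C}) i => (ω i).1) ''
          (univ.filter fun ω : Fin m → {C : Finset (Fin n × Bool) // IsProperClause k C} =>
            (Set.univ ∩ ⋂ i, clP (ω i).1).Nonempty) := by
      ext F
      simp only [Set.mem_ofPred_eq, coe_filter, mem_univ, true_and, Set.mem_image]
      constructor
      · rintro ⟨h1, σ, hσ⟩
        exact ⟨fun i => ⟨F i, h1 i⟩, ⟨σ, trivial, Set.mem_iInter.2 hσ⟩, rfl⟩
      · rintro ⟨ω, ⟨σ, -, hσ⟩, rfl⟩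
        exact ⟨fun i => (ω i).2, σ, Set.mem_iInter.1 hσ⟩
    rw [this, Set.ncard_image_of_injective _ hinj, Set.ncard_coe_finset]
    simp only [ind]
    rw [Finset.sum_boole]
  · have : {F : Fin m → Finset (Fin n × Bool) | ∀ i, IsProperClause k (F i)} =
        (fun (ω : Fin m → {C : Finset (Fin n × Bool) // IsProperClause k C}) i => (ω i).1) ''
          Set.univ := by
      ext F
      simp only [Set.mem_ofPred_eq, Set.mem_image, Set.mem_univ, true_and]
      constructor
      · exact fun h1 => ⟨fun i => ⟨F i, h1 i⟩, rfl⟩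
      · rintro ⟨ω, rfl⟩ i
        exact (ω i).2
    rw [this, Set.ncard_image_of_injective _ hinj, Set.ncard_univ, Nat.card_eq_fintype_card]

open Classical in
theorem satProb_compare {k n : ℕ} (hn : 0 < n) (hkn : k ≤ n) (m : ℕ) :
    0 ≤ satProb k n m ∧ satProb k n m ≤ 1 ∧
    ((1 - (k : ℝ) / n) ^ k) ^ m * satProb k n m ≤ Pi' k n m ∧
    ((1 - (k : ℝ) / n) ^ k) ^ m * (1 - satProb k n m) ≤ 1 - Pi' k n m := by
  have : NeZero n := ⟨hn.ne'⟩
  have hp : (0 : ℝ) < n := by exact_mod_cast hn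
  have hkn' : (k : ℝ) ≤ n := by exact_mod_cast hkn
  have hq : 0 ≤ (1 - (k : ℝ) / n) ^ k := pow_nonneg (sub_nonneg.2 ((div_le_one hp).2 hkn')) k
  have : Nonempty {C : Finset (Fin n × Bool) // IsProperClause k C} := by
    rw [← Fintype.card_pos_iff]
    have h4 := card_proper_ge k n
    have : (0 : ℝ) < ((n + 1 - k : ℕ) : ℝ) := by exact_mod_cast (by omega : 0 < n + 1 - k)
    have : (0 : ℝ) < ((n + 1 - k : ℕ) : ℝ) ^ k * 2 ^ k := by positivity
    exact_mod_cast pos_of_mul_pos_right (this.trans_le h4) (Nat.cast_nonneg _)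
  rw [satProb_eq]
  refine ⟨surv_nonneg _ _ _, surv_le_one _ _ _, ?_, ?_⟩
  · exact pow_dom (isPos_T _) (isPos_T _) hq (fun f hf => proper_dom hn hkn hf) ind_nonneg m
      Set.univ
  · have h := pow_dom (isPos_T _) (isPos_T _) hq (fun f hf => proper_dom hn hkn hf)
      (f := (fun _ => 1) - ind) (fun S => sub_nonneg.2 (ind_le_one S)) m Set.univ
    rw [map_sub, map_sub, T_pow_const, T_pow_const] at h
    exact h

theorem factor_ge {k n : ℕ} (hn : 0 < n) (hkn : 2 * k ≤ n) {c : ℝ} (hc : 0 ≤ c) :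
    Real.exp (-(2 * k ^ 2 * c)) ≤ ((1 - (k : ℝ) / n) ^ k) ^ ⌊c * n⌋₊ := by
  have hp : (0 : ℝ) < n := by exact_mod_cast hn
  have hkn' : 2 * (k : ℝ) ≤ n := by exact_mod_cast hkn
  have hx0 : (0 : ℝ) ≤ k / n := by positivity
  have hx1 : (k : ℝ) / n ≤ 1 / 2 := by rw [div_le_iff₀ hp]; linarith
  have h1 : Real.exp (-(2 * (k / n))) ≤ 1 - (k : ℝ) / n := by
    have := Real.add_one_le_exp (2 * ((k : ℝ) / n))
    rw [Real.exp_neg, inv_le_iff_one_le_mul₀ (Real.exp_pos _)]
    nlinarith [mul_le_mul_of_nonneg_left this (show 0 ≤ 1 - (k : ℝ) / n by linarith)]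
  rw [← pow_mul]
  refine le_trans ?_ (pow_le_pow_left₀ (Real.exp_pos _).le h1 _)
  rw [← Real.exp_nat_mul]
  refine Real.exp_le_exp.2 ?_
  have h2 : (⌊c * n⌋₊ : ℝ) ≤ c * n := Nat.floor_le (by positivity)
  push_cast
  rw [mul_neg, neg_le_neg_iff]
  calc (k : ℝ) * ⌊c * n⌋₊ * (2 * (k / n)) ≤ k * (c * n) * (2 * (k / n)) := by gcongr
    _ = 2 * k ^ 2 * c := by field_simp

theorem threshold {k : ℕ} (hk : 3 ≤ k) :
    ∃ α : ℝ, 0 < α ∧
      (∀ c : ℝ, 0 ≤ c → c < α → Tendsto (fun n : ℕ => satProb k n ⌊c * n⌋₊) atTop (𝓝 1)) ∧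
      (∀ c : ℝ, α < c → Tendsto (fun n : ℕ => satProb k n ⌊c * n⌋₊) atTop (𝓝 0)) := by
  obtain ⟨α, hα, h1, h2⟩ := iid_threshold hk
  refine ⟨α, hα, fun c hc0 hc => ?_, fun c hc => ?_⟩
  · have hd := Real.exp_pos (-(2 * k ^ 2 * c))
    have e1 : Tendsto (fun n : ℕ => 1 - (1 - Pi' k n ⌊c * n⌋₊) / Real.exp (-(2 * k ^ 2 * c)))
        atTop (𝓝 (1 - (1 - 1) / Real.exp (-(2 * k ^ 2 * c)))) :=
      tendsto_const_nhds.sub ((tendsto_const_nhds.sub (h1 c hc0 hc)).div_const _)
    rw [sub_self, zero_div, sub_zero] at e1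
    refine tendsto_of_tendsto_of_tendsto_of_le_of_le' e1 tendsto_const_nhds ?_ ?_
    · filter_upwards [eventually_ge_atTop (2 * k)] with n hn
      obtain ⟨-, a2, -, a4⟩ := satProb_compare (k := k) (n := n) (by omega) (by omega) ⌊c * n⌋₊
      have a5 := mul_le_mul_of_nonneg_right (factor_ge (k := k) (n := n) (by omega) hn hc0)
        (sub_nonneg.2 a2)
      rw [sub_le_comm, le_div_iff₀ hd]
      linarith
    · filter_upwards [eventually_ge_atTop (2 * k)] with n hn
      exact (satProb_compare (k := k) (n := n) (by omega) (by omega) ⌊c * n⌋₊).2.1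
  · have hc0 : 0 ≤ c := by linarith
    have hd := Real.exp_pos (-(2 * k ^ 2 * c))
    have e1 := (h2 c hc).div_const (Real.exp (-(2 * k ^ 2 * c)))
    rw [zero_div] at e1
    refine squeeze_zero' ?_ ?_ e1
    · filter_upwards [eventually_ge_atTop (2 * k)] with n hn
      exact (satProb_compare (k := k) (n := n) (by omega) (by omega) ⌊c * n⌋₊).1
    · filter_upwards [eventually_ge_atTop (2 * k)] with n hn
      obtain ⟨a1, -, a3, -⟩ := satProb_compare (k := k) (n := n) (by omega) (by omega) ⌊c * n⌋₊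
      have a5 := mul_le_mul_of_nonneg_right (factor_ge (k := k) (n := n) (by omega) hn hc0) a1
      rw [le_div_iff₀ hd]
      linarith

end Vale.Agent.P170
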