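import Mathlib

/-!
Random restriction operators on functions of sets, and the variance bound
for the truncated survival time.
-/

namespace Vale.Agent.P170

open Finset

/-- average of a real function over a finite type -/
noncomputable def av {ι : Type*} [Fintype ι] (f : ι → ℝ) : ℝ := (∑ i, f i) / Fintype.card ι

section av
variable {ι κ : Type*} [Fintype ι] [Fintype κ]

theorem av_mono {f g : ι → ℝ} (h : ∀ i, f i ≤ g i) : av f ≤ av g :=
  div_le_div_of_nonneg_right (Finset.sum_le_sum fun i _ => h i) (Nat.cast_nonneg _)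

theorem av_nonneg {f : ι → ℝ} (h : ∀ i, 0 ≤ f i) : 0 ≤ av f :=
  div_nonneg (Finset.sum_nonneg fun i _ => h i) (Nat.cast_nonneg _)

theorem av_add (f g : ι → ℝ) : av (fun i => f i + g i) = av f + av g := by
  simp [av, Finset.sum_add_distrib, add_div]

theorem av_sub (f g : ι → ℝ) : av (fun i => f i - g i) = av f - av g := by
  simp [av, Finset.sum_sub_distrib, sub_div]

theorem av_mul_left (a : ℝ) (f : ι → ℝ) : av (fun i => a * f i) = a * av f := by
  simp [av, ← Finset.mul_sum, mul_div_assoc]

theorem av_mul_right (a : ℝ) (f : ι → ℝ) : av (fun i => f i * a) = av f * a := by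
  simp only [mul_comm _ a, av_mul_left]

theorem av_const [Nonempty ι] (a : ℝ) : av (fun _ : ι => a) = a := by
  have : (Fintype.card ι : ℝ) ≠ 0 := by exact_mod_cast Fintype.card_ne_zero
  rw [av, Finset.sum_const, Finset.card_univ, nsmul_eq_mul]; field_simp

theorem av_zero : av (fun _ : ι => (0 : ℝ)) = 0 := by simp [av]

theorem av_comm (f : ι → κ → ℝ) : av (fun i => av (fun j => f i j)) = av (fun j => av (fun i => f i j)) := by
  simp only [av, ← Finset.sum_div]
  rw [Finset.sum_comm, div_div, div_div, mul_comm]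

theorem av_sum {α : Type*} (s : Finset α) (f : α → ι → ℝ) :
    av (fun i => ∑ a ∈ s, f a i) = ∑ a ∈ s, av (f a) := by
  simp only [av, ← Finset.sum_div]
  rw [Finset.sum_comm]

theorem av_le [Nonempty ι] {f : ι → ℝ} {a : ℝ} (h : ∀ i, f i ≤ a) : av f ≤ a := by
  rw [← av_const (ι := ι) a]; exact av_mono h

theorem av_equiv (e : ι ≃ κ) (f : κ → ℝ) : av (fun i => f (e i)) = av f := by
  simp only [av]
  rw [Equiv.sum_comp e f, Fintype.card_congr e]

theorem av_prod (f : ι × κ → ℝ) : av f = av (fun i => av (fun j => f (i, j))) := by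
  simp only [av, ← Finset.sum_div]
  rw [Fintype.sum_prod_type, Fintype.card_prod, div_div, mul_comm]
  push_cast; rfl

/-- the variance is at most the mean square deviation from any point -/
theorem av_sq_sub_le [Nonempty ι] (f : ι → ℝ) (a : ℝ) :
    av (fun i => f i ^ 2) - av f ^ 2 ≤ av (fun i => (a - f i) ^ 2) := by
  have h : av (fun i => (a - f i) ^ 2) = a ^ 2 - 2 * a * av f + av (fun i => f i ^ 2) := by
    have : (fun i => (a - f i) ^ 2) = fun i => (a ^ 2 - (2 * a) * f i) + f i ^ 2 := by
      funext i; ring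
    rw [this, av_add, av_sub, av_const, av_mul_left]
  rw [h]; nlinarith [sq_nonneg (a - av f)]

theorem sq_av_le [Nonempty ι] (f : ι → ℝ) : av f ^ 2 ≤ av (fun i => f i ^ 2) := by
  have h0 : 0 ≤ av (fun i => (av f - f i) ^ 2) := av_nonneg fun i => sq_nonneg _
  have h : av (fun i => (av f - f i) ^ 2) = av f ^ 2 - 2 * av f * av f + av (fun i => f i ^ 2) := by
    have : (fun i => (av f - f i) ^ 2) = fun i => (av f ^ 2 - (2 * av f) * f i) + f i ^ 2 := by
      funext i; ring
    rw [this, av_add, av_sub, av_const, av_mul_left]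
  nlinarith

theorem av_pi_prod {k : Type*} [Fintype k] [DecidableEq k] (f : k → ι → ℝ) :
    av (fun c : k → ι => ∏ i, f i (c i)) = ∏ i, av (f i) := by
  simp only [av]
  rw [Finset.prod_div_distrib, Finset.prod_const, Fintype.card_pi, Finset.prod_const,
    Finset.prod_univ_sum]
  simp [Fintype.piFinset_univ]

end av

open Classical in
/-- indicator of nonemptiness -/
noncomputable def ind {Ω : Type*} (S : Set Ω) : ℝ := if S.Nonempty then 1 else 0

section ind
variable {Ω : Type*}

theorem ind_of_nonempty {S : Set Ω} (h : S.Nonempty) : ind S = 1 := by simp [ind, h]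
theorem ind_empty : ind (∅ : Set Ω) = 0 := by simp [ind]
theorem ind_nonneg (S : Set Ω) : 0 ≤ ind S := by unfold ind; split_ifs <;> norm_num
theorem ind_le_one (S : Set Ω) : ind S ≤ 1 := by unfold ind; split_ifs <;> norm_num
theorem ind_mono_map {Ω' : Type*} {π : Ω → Ω'} {S : Set Ω} {S' : Set Ω'} (h : Set.MapsTo π S S') :
    ind S ≤ ind S' := by
  rcases S.eq_empty_or_nonempty with rfl | hS
  · rw [ind_empty]; exact ind_nonneg _
  · obtain ⟨x, hx⟩ := hS
    rw [ind_of_nonempty ⟨x, hx⟩, ind_of_nonempty ⟨π x, h hx⟩]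

end ind

/-- the random restriction operator of a finite family of sets -/
noncomputable def T {Ω Γ : Type*} [Fintype Γ] (A : Γ → Set Ω) : Module.End ℝ (Set Ω → ℝ) where
  toFun f S := av (fun c => f (S ∩ A c))
  map_add' f g := by funext S; exact av_add _ _
  map_smul' a f := by funext S; exact av_mul_left _ _

/-- positive operators -/
def IsPos {Ω : Type*} (L : Module.End ℝ (Set Ω → ℝ)) : Prop := ∀ f g, f ≤ g → L f ≤ L g

section op
variable {Ω Γ Γ' : Type*} [Fintype Γ] [Fintype Γ']

theorem T_apply (A : Γ → Set Ω) (f : Set Ω → ℝ) (S : Set Ω) :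
    T A f S = av (fun c => f (S ∩ A c)) := rfl

theorem isPos_T (A : Γ → Set Ω) : IsPos (T A) := fun _ _ h _ => av_mono fun _ => h _

theorem IsPos.pow {L : Module.End ℝ (Set Ω → ℝ)} (hL : IsPos L) (m : ℕ) : IsPos (L ^ m) := by
  induction m with
  | zero => intro f g h; simpa using h
  | succ m ih => intro f g h; rw [pow_succ]; exact ih _ _ (hL _ _ h)

theorem IsPos.nonneg {L : Module.End ℝ (Set Ω → ℝ)} (hL : IsPos L) {f : Set Ω → ℝ} (h : 0 ≤ f) :
    0 ≤ L f := by simpa using hL 0 f h

theorem commute_T (A : Γ → Set Ω) (B : Γ' → Set Ω) : Commute (T A) (T B) := by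
  refine LinearMap.ext fun f => funext fun S => ?_
  show av (fun c => av (fun d => f (S ∩ A c ∩ B d))) = av (fun d => av (fun c => f (S ∩ B d ∩ A c)))
  rw [av_comm]
  simp only [Set.inter_right_comm]

theorem T_pow_succ (A : Γ → Set Ω) (m : ℕ) (f : Set Ω → ℝ) (S : Set Ω) :
    (T A ^ (m + 1)) f S = av (fun c => (T A ^ m) f (S ∩ A c)) := by
  rw [pow_succ']; rfl

theorem T_const [Nonempty Γ] (A : Γ → Set Ω) (a : ℝ) : T A (fun _ => a) = fun _ => a := by
  funext S; exact av_const a

theorem T_pow_const [Nonempty Γ] (A : Γ → Set Ω) (m : ℕ) (a : ℝ) :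
    (T A ^ m) (fun _ => a) = fun _ => a := by
  induction m with
  | zero => rfl
  | succ m ih => rw [pow_succ, Module.End.mul_apply, T_const, ih]

theorem T_pow_empty (A : Γ → Set Ω) (m : ℕ) {f : Set Ω → ℝ} (hf : f ∅ = 0) :
    (T A ^ m) f ∅ = 0 := by
  induction m with
  | zero => exact hf
  | succ m ih => rw [T_pow_succ]; simp only [Set.empty_inter, ih, av_zero]

/-- survival probability after m random restrictions -/
noncomputable def surv (A : Γ → Set Ω) (m : ℕ) : Set Ω → ℝ := (T A ^ m) ind

theorem surv_zero (A : Γ → Set Ω) : surv A 0 = ind := rfl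

theorem surv_succ (A : Γ → Set Ω) (m : ℕ) (S : Set Ω) :
    surv A (m + 1) S = av (fun c => surv A m (S ∩ A c)) := T_pow_succ _ _ _ _

theorem surv_nonneg (A : Γ → Set Ω) (m : ℕ) (S : Set Ω) : 0 ≤ surv A m S :=
  ((isPos_T A).pow m).nonneg (f := ind) ind_nonneg S

theorem surv_empty (A : Γ → Set Ω) (m : ℕ) : surv A m ∅ = 0 := T_pow_empty _ _ ind_empty

theorem surv_mono_map {Ω' : Type*} {A : Γ → Set Ω} {A' : Γ → Set Ω'} {π : Ω → Ω'}
    (h : ∀ c, Set.MapsTo π (A c) (A' c)) (m : ℕ) {S : Set Ω} {S' : Set Ω'}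
    (hS : Set.MapsTo π S S') : surv A m S ≤ surv A' m S' := by
  induction m generalizing S S' with
  | zero => exact ind_mono_map hS
  | succ m ih =>
    rw [surv_succ, surv_succ]
    exact av_mono fun c => ih fun x hx => ⟨hS hx.1, h c hx.2⟩

theorem surv_mono (A : Γ → Set Ω) (m : ℕ) {S S' : Set Ω} (hS : S ⊆ S') :
    surv A m S ≤ surv A m S' :=
  surv_mono_map (π := id) (fun _ _ hx => hx) m hS

variable [Nonempty Γ]

theorem surv_succ_le (A : Γ → Set Ω) (m : ℕ) (S : Set Ω) : surv A (m + 1) S ≤ surv A m S := by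
  rw [surv_succ]; exact av_le fun c => surv_mono _ _ Set.inter_subset_left

theorem surv_antitone (A : Γ → Set Ω) (S : Set Ω) : Antitone fun m => surv A m S :=
  antitone_nat_of_succ_le fun m => surv_succ_le A m S

theorem surv_le_ind (A : Γ → Set Ω) (m : ℕ) (S : Set Ω) : surv A m S ≤ ind S :=
  surv_antitone A S (Nat.zero_le m)

theorem surv_le_one (A : Γ → Set Ω) (m : ℕ) (S : Set Ω) : surv A m S ≤ 1 :=
  (surv_le_ind A m S).trans (ind_le_one S)

end op

/-- cumulated iterates -/
noncomputable def cum {Ω : Type*} (L : Module.End ℝ (Set Ω → ℝ)) (M : ℕ) :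
    Module.End ℝ (Set Ω → ℝ) := ∑ m ∈ range M, L ^ m

section cum
variable {Ω Γ : Type*} [Fintype Γ]

theorem cum_zero (L : Module.End ℝ (Set Ω → ℝ)) : cum L 0 = 0 := by simp [cum]

theorem cum_succ (L : Module.End ℝ (Set Ω → ℝ)) (M : ℕ) : cum L (M + 1) = 1 + L * cum L M := by
  rw [cum, Finset.sum_range_succ', cum, Finset.mul_sum, add_comm, pow_zero]
  simp only [pow_succ']

theorem cum_succ_apply (L : Module.End ℝ (Set Ω → ℝ)) (M : ℕ) (f : Set Ω → ℝ) (S : Set Ω) :
    cum L (M + 1) f S = f S + L (cum L M f) S := by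
  rw [cum_succ]; rfl

theorem cum_apply (L : Module.End ℝ (Set Ω → ℝ)) (M : ℕ) (f : Set Ω → ℝ) (S : Set Ω) :
    cum L M f S = ∑ m ∈ range M, (L ^ m) f S := by
  simp [cum, LinearMap.sum_apply, Finset.sum_apply]

theorem IsPos.cum {L : Module.End ℝ (Set Ω → ℝ)} (hL : IsPos L) (M : ℕ) : IsPos (cum L M) := by
  intro f g h S
  rw [cum_apply, cum_apply]
  exact Finset.sum_le_sum fun m _ => hL.pow m f g h S

theorem commute_cum {L N : Module.End ℝ (Set Ω → ℝ)} (h : Commute N L) (M : ℕ) :
    Commute N (cum L M) := Commute.sum_right _ _ _ fun m _ => h.pow_right m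

theorem cum_telescope (L : Module.End ℝ (Set Ω → ℝ)) (M : ℕ) (f : Set Ω → ℝ) :
    cum L M (f - L f) = f - (L ^ M) f := by
  induction M with
  | zero => simp [cum]
  | succ M ih =>
    rw [cum, Finset.sum_range_succ, ← cum, LinearMap.add_apply, ih, map_sub, pow_succ,
      Module.End.mul_apply]
    abel

theorem cum_le_succ {L : Module.End ℝ (Set Ω → ℝ)} (hL : IsPos L) (M : ℕ) {f : Set Ω → ℝ}
    (hf : 0 ≤ f) (S : Set Ω) : cum L M f S ≤ cum L (M + 1) f S := by
  rw [cum_apply, cum_apply, Finset.sum_range_succ]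
  have := (hL.pow M).nonneg hf S
  simp only [Pi.zero_apply] at this
  linarith

theorem cum_const [Nonempty Γ] (A : Γ → Set Ω) (M : ℕ) (a : ℝ) (S : Set Ω) :
    cum (T A) M (fun _ => a) S = M * a := by
  rw [cum_apply]; simp [T_pow_const]

/-- expected truncated survival time -/
noncomputable def life (A : Γ → Set Ω) (M : ℕ) : Set Ω → ℝ := cum (T A) M ind

theorem life_eq (A : Γ → Set Ω) (M : ℕ) (S : Set Ω) :
    life A M S = ∑ m ∈ range M, surv A m S := cum_apply _ _ _ _

theorem life_zero (A : Γ → Set Ω) (S : Set Ω) : life A 0 S = 0 := by simp [life_eq]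

theorem life_succ (A : Γ → Set Ω) (M : ℕ) (S : Set Ω) :
    life A (M + 1) S = ind S + av (fun c => life A M (S ∩ A c)) := cum_succ_apply _ _ _ _

theorem life_nonneg (A : Γ → Set Ω) (M : ℕ) (S : Set Ω) : 0 ≤ life A M S := by
  rw [life_eq]; exact Finset.sum_nonneg fun m _ => surv_nonneg _ _ _

theorem life_empty (A : Γ → Set Ω) (M : ℕ) : life A M ∅ = 0 := by
  simp [life_eq, surv_empty]

theorem life_mono (A : Γ → Set Ω) (M : ℕ) {S S' : Set Ω} (h : S ⊆ S') :
    life A M S ≤ life A M S' := by
  rw [life_eq, life_eq]; exact Finset.sum_le_sum fun m _ => surv_mono _ _ h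

variable [Nonempty Γ]

theorem life_le (A : Γ → Set Ω) (M : ℕ) (S : Set Ω) : life A M S ≤ M := by
  rw [life_eq]
  calc _ ≤ ∑ _m ∈ range M, (1 : ℝ) := Finset.sum_le_sum fun m _ => surv_le_one _ _ _
    _ = M := by simp

/-- hazard rate times expected life is at most one -/
theorem hazard_mul_life_le (A : Γ → Set Ω) (M : ℕ) (S : Set Ω) :
    (ind S - T A ind S) * life A M S ≤ 1 := by
  rcases S.eq_empty_or_nonempty with rfl | hS
  · simp [life_empty]
  induction M with
  | zero => simp [life_zero]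
  | succ M ih =>
    have h1 : av (fun c => life A M (S ∩ A c)) ≤ T A ind S * life A M S := by
      rw [T_apply, ← av_mul_right]
      refine av_mono fun c => ?_
      rcases (S ∩ A c).eq_empty_or_nonempty with h | h
      · rw [h, life_empty, ind_empty, zero_mul]
      · rw [ind_of_nonempty h, one_mul]; exact life_mono _ _ Set.inter_subset_left
    have h2 : 0 ≤ T A ind S := surv_nonneg A 1 S
    have h3 : T A ind S ≤ 1 := surv_le_one A 1 S
    rw [life_succ]
    rw [ind_of_nonempty hS] at ih ⊢
    nlinarith [mul_le_mul_of_nonneg_left h1 (sub_nonneg.2 h3), mul_le_mul_of_nonneg_left ih h2]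

/-- mean square effect of one more restriction -/
theorem effect_le (A : Γ → Set Ω) (M₀ : ℕ) {φ : Set Ω → ℝ}
    (hφ : ∀ M ≤ M₀, ∀ S, (ind S - T A ind S) * life A M S ≤ φ S) (M : ℕ) (hM : M ≤ M₀)
    (S : Set Ω) :
    av (fun c => (life A M S - life A M (S ∩ A c)) ^ 2) ≤ 2 * cum (T A) M φ S := by
  induction M generalizing S with
  | zero => simp [life_zero, av_zero, cum_zero]
  | succ M ih =>
    have key : ∀ c, (life A (M + 1) S - life A (M + 1) (S ∩ A c)) ^ 2 ≤
        (ind S - ind (S ∩ A c)) * (2 * life A (M + 1) S) +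
          av (fun d => (life A M (S ∩ A d) - life A M (S ∩ A d ∩ A c)) ^ 2) := by
      intro c
      have hsq := sq_av_le (fun d => life A M (S ∩ A d) - life A M (S ∩ A d ∩ A c))
      have e1 : life A (M + 1) S - life A (M + 1) (S ∩ A c) = (ind S - ind (S ∩ A c)) +
          av (fun d => life A M (S ∩ A d) - life A M (S ∩ A d ∩ A c)) := by
        rw [life_succ, life_succ, av_sub]
        simp only [Set.inter_right_comm S (A c)]
        ring
      have e2 : av (fun d => life A M (S ∩ A d) - life A M (S ∩ A d ∩ A c)) ≤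
          av (fun d => life A M (S ∩ A d)) :=
        av_mono fun d => sub_le_self _ (life_nonneg _ _ _)
      rw [e1]
      rcases (S ∩ A c).eq_empty_or_nonempty with h | h
      · rcases S.eq_empty_or_nonempty with rfl | hS
        · simpa [ind_empty] using hsq
        · rw [life_succ, h, ind_empty, ind_of_nonempty hS]
          nlinarith
      · rw [ind_of_nonempty h, ind_of_nonempty (h.mono Set.inter_subset_left)]
        simpa using hsq
    refine (av_mono key).trans ?_
    rw [av_add, av_mul_right, av_sub, av_const, av_comm, cum_succ_apply, T_apply, mul_add,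
      ← av_mul_left]
    refine add_le_add ?_ (av_mono fun d => ih (by omega) _)
    have := hφ (M + 1) hM S
    rw [T_apply] at this
    linarith

/-- variance bound for the truncated survival time -/
theorem variance_le (A : Γ → Set Ω) (M₀ : ℕ) {φ : Set Ω → ℝ} (hφ0 : 0 ≤ φ)
    (hφ : ∀ M ≤ M₀, ∀ S, (ind S - T A ind S) * life A M S ≤ φ S) (M : ℕ) (hM : M ≤ M₀)
    (S : Set Ω) :
    (∑ m ∈ range M, (2 * (m : ℝ) + 1) * surv A m S) - life A M S ^ 2 ≤
      2 * M * cum (T A) M φ S := by
  induction M generalizing S with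
  | zero => simp [life_zero]
  | succ M ih =>
    have e1 : (∑ m ∈ range (M + 1), (2 * (m : ℝ) + 1) * surv A m S) =
        ind S + 2 * av (fun c => life A M (S ∩ A c)) +
          av (fun c => ∑ m ∈ range M, (2 * (m : ℝ) + 1) * surv A m (S ∩ A c)) := by
      rw [Finset.sum_range_succ', surv_zero, av_sum]
      simp only [life_eq, av_sum, av_mul_left, ← surv_succ, Finset.mul_sum]
      rw [add_assoc, ← Finset.sum_add_distrib, add_comm]
      congr 1
      · simp
      · refine Finset.sum_congr rfl fun m _ => ?_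
        push_cast; ring
    have e2 : (∑ m ∈ range (M + 1), (2 * (m : ℝ) + 1) * surv A m S) - life A (M + 1) S ^ 2 =
        av (fun c => ∑ m ∈ range M, (2 * (m : ℝ) + 1) * surv A m (S ∩ A c)) -
          av (fun c => life A M (S ∩ A c)) ^ 2 := by
      rw [e1, life_succ]
      rcases S.eq_empty_or_nonempty with rfl | hS
      · simp [ind_empty, life_empty, av_zero]
      · rw [ind_of_nonempty hS]; ring
    have e3 := av_sq_sub_le (fun c => life A M (S ∩ A c)) (life A M S)
    have e4 := effect_le A M₀ hφ M (by omega) S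
    have e5 : av (fun c => (∑ m ∈ range M, (2 * (m : ℝ) + 1) * surv A m (S ∩ A c)) -
        life A M (S ∩ A c) ^ 2) ≤ av (fun c => 2 * M * cum (T A) M φ (S ∩ A c)) :=
      av_mono fun c => ih (by omega) _
    rw [av_sub, av_mul_left] at e5
    have e6 := cum_le_succ (isPos_T A) M hφ0 S
    have e7 : av (fun c => cum (T A) M φ (S ∩ A c)) ≤ cum (T A) (M + 1) φ S := by
      rw [cum_succ_apply, T_apply]
      have := hφ0 S
      simp only [Pi.zero_apply] at this
      linarith
    have hM0 : (0 : ℝ) ≤ M := Nat.cast_nonneg M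
    rw [e2]
    push_cast
    nlinarith [mul_le_mul_of_nonneg_left e7 hM0]

end cum

end Vale.Agent.P170
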